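import Mathlib

/-! Density evolution on a polar grid: the computation (all recursions through recursors, so that
the kernel evaluates them fast).  Weights are packed in base `WW`. -/

namespace Vale.Agent.P154.E

/-- base of the packing -/
def WW : ℕ := 2 ^ 80
/-- scale of the weights -/
def SW : ℕ := 2 ^ 26
/-- scale of the structure constants -/
def ST : ℕ := 2 ^ 24

/-- one row of the polar grid: radius `t / Q`, `n` intervals, first index `off`.
`rowP` is the packed pair of weights of the two neighbours of the point with direction `e / dl`;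
`num / den` is the mass. -/
def rowP (n off num den e dl : ℕ) : ℕ :=
  cond (Nat.beq n 0) ((num / den) * WW ^ off)
    (((num * (dl - (e * n) % dl)) / (den * dl) + ((num * ((e * n) % dl)) / (den * dl)) * WW) *
      WW ^ (off + (e * n) / dl))

/-- packed weights of the decomposition of a sorted vector with total mass `Z`, `dl = x + y - 2 z`,
`e = x - y`; `s / D` is the scale -/
noncomputable def sprd (Q s D Z dl e : ℕ) : List (ℕ × ℕ × ℕ) → ℕ × ℕ × ℕ → ℕ := fun rows =>
  @List.rec (ℕ × ℕ × ℕ) (fun _ => ℕ × ℕ × ℕ → ℕ) (fun _ => 0)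
    (fun r1 _ ih r0 => cond (Nat.ble (Q * dl) (r1.1 * Z))
      (rowP r0.2.1 r0.2.2 (s * (r1.1 * Z - Q * dl)) (D * (r1.1 - r0.1)) e dl +
       rowP r1.2.1 r1.2.2 (s * (Q * dl - r0.1 * Z)) (D * (r1.1 - r0.1)) e dl)
      (ih r1)) rows

/-- minimum -/
def mn (a b : ℕ) : ℕ := cond (Nat.ble a b) a b
/-- maximum -/
def mx (a b : ℕ) : ℕ := cond (Nat.ble a b) b a

/-- the decomposition of an arbitrary vector -/
noncomputable def sp3 (Q s D : ℕ) (r0 : ℕ × ℕ × ℕ) (rows : List (ℕ × ℕ × ℕ)) (x y z : ℕ) : ℕ :=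
  sprd Q s D (x + y + z) (x + y + z - 3 * mn x (mn y z))
    (2 * mx x (mx y z) + mn x (mn y z) - (x + y + z)) rows r0

/-- sum over the six permutations -/
noncomputable def sp6 (Q s D : ℕ) (r0 : ℕ × ℕ × ℕ) (rows : List (ℕ × ℕ × ℕ))
    (a b : ℕ × ℕ × ℕ) : ℕ :=
  sp3 Q s D r0 rows (a.1 * b.1) (a.2.1 * b.2.1) (a.2.2 * b.2.2) +
  sp3 Q s D r0 rows (a.1 * b.1) (a.2.1 * b.2.2) (a.2.2 * b.2.1) +
  sp3 Q s D r0 rows (a.1 * b.2.1) (a.2.1 * b.1) (a.2.2 * b.2.2) +
  sp3 Q s D r0 rows (a.1 * b.2.1) (a.2.1 * b.2.2) (a.2.2 * b.1) +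
  sp3 Q s D r0 rows (a.1 * b.2.2) (a.2.1 * b.1) (a.2.2 * b.2.1) +
  sp3 Q s D r0 rows (a.1 * b.2.2) (a.2.1 * b.2.1) (a.2.2 * b.1)

/-- packed structure constants for the pairs of elements of a list -/
noncomputable def tens (Q D : ℕ) (r0 : ℕ × ℕ × ℕ) (rows : List (ℕ × ℕ × ℕ)) :
    List (ℕ × ℕ × ℕ) → List (List ℕ) := fun A =>
  @List.rec (ℕ × ℕ × ℕ) (fun _ => List (List ℕ)) []
    (fun a A' ih => (sp6 Q ST D r0 rows a a ::
      @List.rec (ℕ × ℕ × ℕ) (fun _ => List ℕ) []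
        (fun b _ ih2 => sp6 Q (2 * ST) D r0 rows a b :: ih2) A') :: ih) A

/-- linear combination -/
noncomputable def linF : List ℕ → List ℕ → ℕ := fun l =>
  @List.rec ℕ (fun _ => List ℕ → ℕ) (fun _ => 0)
    (fun a _ ih m => @List.rec ℕ (fun _ => ℕ) 0 (fun b m' _ => a * b + ih m') m) l

/-- quadratic form -/
noncomputable def quadF : List ℕ → List (List ℕ) → ℕ := fun w =>
  @List.rec ℕ (fun _ => List (List ℕ) → ℕ) (fun _ => 0)
    (fun a w' ih P => @List.rec (List ℕ) (fun _ => ℕ) 0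
      (fun r P' _ => a * linF (a :: w') r + ih P') P) w

/-- unpack, divide by the scale, put the rest on the vertex -/
noncomputable def unp : ℕ → ℕ → ℕ → List ℕ := fun n =>
  @Nat.rec (fun _ => ℕ → ℕ → List ℕ) (fun _ s => [SW - s])
    (fun _ ih X s => ((X % WW) / (SW * ST)) :: ih (X / WW) (s + (X % WW) / (SW * ST))) n

/-- one level for four children -/
noncomputable def lev4 (n : ℕ) (PK PG : List (List ℕ)) (w : List ℕ) : List ℕ :=
  unp n (quadF (unp n (quadF w PK) 0) PG) 0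

/-- iterate -/
noncomputable def iter4 (n : ℕ) (PK PG : List (List ℕ)) : ℕ → List ℕ → List ℕ := fun L =>
  @Nat.rec (fun _ => List ℕ → List ℕ) (fun w => w) (fun _ ih w => ih (lev4 n PK PG w)) L

end Vale.Agent.P154.E
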