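import Vale.Agent.P154N.EMain
import Vale.Agent.P154.N3Seq

/-! The moments at level 231 -/

namespace Vale.Agent.P154.E

open Vale.Agent.P154.G Vale.Agent.P154N Finset

/-- `Γ² (1 - 3 e₂)` -/
def rI (a : T3) : ℤ := (a.1 : ℤ) ^ 2 + (a.2.1 : ℤ) ^ 2 + (a.2.2 : ℤ) ^ 2 -
  ((a.1 : ℤ) * a.2.1 + (a.1 : ℤ) * a.2.2 + (a.2.1 : ℤ) * a.2.2)

/-- weighted sum of powers -/
def mI (i : ℕ) : List ℕ → List T3 → ℤ
  | a :: w, b :: A => a * rI b ^ i + mI i w A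
  | _, _ => 0

lemma LS_mI (i : ℕ) : ∀ (w : List ℕ) (A : List T3),
    LS (fun a => ((rI a : ℤ) : ℝ) ^ i) w A = ((mI i w A : ℤ) : ℝ)
  | [], _ => by simp [LS, mI]
  | _ :: _, [] => by simp [LS, mI]
  | a :: w, b :: A => by
    rw [LS, mI, LS_mI i w A]
    push_cast
    rfl

lemma one_sub_E2 {Γ : ℕ} {a : T3} (h : a.1 + a.2.1 + a.2.2 = Γ) {v : V 3}
    (hv : ∀ i, vN a i = Γ * v i) : (Γ : ℝ) ^ 2 * (1 - 3 * E2 v) = ((rI a : ℤ) : ℝ) := by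
  have h0 : (a.1 : ℝ) = Γ * v 0 := hv 0
  have h1 : (a.2.1 : ℝ) = Γ * v 1 := hv 1
  have h2 : (a.2.2 : ℝ) = Γ * v 2 := hv 2
  have hs : (Γ : ℝ) = (a.1 : ℝ) + a.2.1 + a.2.2 := by rw [← h]; push_cast; ring
  have e : (Γ : ℝ) ^ 2 * (1 - 3 * E2 v) = (Γ : ℝ) ^ 2 - 3 * ((Γ * v 0) * (Γ * v 1) +
      (Γ * v 0) * (Γ * v 2) + (Γ * v 1) * (Γ * v 2)) := by unfold E2; ring
  rw [e, ← h0, ← h1, ← h2]
  unfold rI
  push_cast
  rw [hs]
  ring

/-- moments of a weighted grid -/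
theorem mom_le {Γ n : ℕ} (hΓ : 0 < Γ) {ga : List T3} (hl : ga.length = n + 1)
    (hm : ∀ a ∈ ga, a.1 + a.2.1 + a.2.2 = Γ) {w : List ℕ} (hw : w.length = n + 1) (i : ℕ)
    {P Q : ℤ} (hQ : 0 < Q) (hnum : Q * mI i w ga ≤ P * ((SW : ℤ) * ((Γ : ℤ) ^ 2) ^ i)) :
    ∑ k : Fin (n + 1), (w.getD k 0 : ℝ) / SW * (1 - 3 * E2 (gpt Γ ga k)) ^ i ≤ (P : ℝ) / Q := by
  have hΓR : (0 : ℝ) < Γ := by exact_mod_cast hΓ
  have hSW : (0 : ℝ) < SW := by unfold SW; positivity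
  have hQR : (0 : ℝ) < Q := by exact_mod_cast hQ
  have hga := gpt_eq (n := n) hΓ hl
  have e := LS_eq (fun a => ((rI a : ℤ) : ℝ) ^ i) ga w (by rw [hw, hl])
  rw [LS_mI, hl] at e
  have e2 : (mI i w ga : ℝ) = (SW : ℝ) * ((Γ : ℝ) ^ 2) ^ i *
      ∑ k : Fin (n + 1), (w.getD k 0 : ℝ) / SW * (1 - 3 * E2 (gpt Γ ga k)) ^ i := by
    rw [e, Finset.mul_sum, Finset.sum_range]
    refine Finset.sum_congr rfl fun k _ => ?_
    have hkl : (k : ℕ) < ga.length := by rw [hl]; exact k.2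
    have hmem : ga.getD k (0, 0, 0) ∈ ga := by
      rw [List.getD_eq_getElem _ _ hkl]
      exact List.getElem_mem hkl
    have h1 := one_sub_E2 (hm _ hmem) (hga k k.2)
    rw [← h1, mul_pow]
    field_simp
  have h3 : (Q : ℝ) * (mI i w ga : ℝ) ≤ P * ((SW : ℝ) * ((Γ : ℝ) ^ 2) ^ i) := by
    exact_mod_cast hnum
  rw [le_div_iff₀ hQR]
  rw [e2] at h3
  have h4 : (0 : ℝ) < (SW : ℝ) * ((Γ : ℝ) ^ 2) ^ i := by positivity
  refine le_of_mul_le_mul_left ?_ h4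
  linarith

theorem hand1 {n : ℕ} (hn : 231 ≤ n) : et 4 half_ok n 1 ≤ 249 / 2500 := by
  have hB := Bd.mono (by norm_num) hn stage2.2.2
  rw [et_X half_ok n]
  refine (hB.X_le (by norm_num)).trans ?_
  have h2 := mom_le (n := 115) grid2.Gpos grid2.len grid2.mass stage2.1 1 (P := 249) (Q := 2500)
    (by norm_num) (by decide +kernel)
  refine le_trans (le_of_eq ?_) (h2.trans (le_of_eq (by norm_num)))
  exact Finset.sum_congr rfl fun k _ => by rw [Rf_one3 (grid2.sg1 k), pow_one]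

theorem hand2 {n : ℕ} (hn : 231 ≤ n) : et 4 half_ok n 2 ≤ 171 / 10000 := by
  have hB := Bd.mono (by norm_num) hn stage2.2.2
  have h1 : et 4 half_ok n 2 = Phi (pw 2) (fam (PMF.pure 4) (potts (q := 3) (-1 / 2) half_ok) n) :=
    Phi_Fe_Y (nf half_ok n)
  rw [h1]
  refine (hB (pw 2) (ssub_pw (by norm_num) 2)).trans ?_
  have h2 := mom_le (n := 115) grid2.Gpos grid2.len grid2.mass stage2.1 2 (P := 171) (Q := 10000)
    (by norm_num) (by decide +kernel)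
  refine le_trans (le_of_eq ?_) (h2.trans (le_of_eq (by norm_num)))
  exact Finset.sum_congr rfl fun k _ => by rw [pw_one3 2 (grid2.sg1 k)]

end Vale.Agent.P154.E
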