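import Vale.Agent.P154N.EDefs
import Vale.Agent.P154.GBd4

/-! Correctness of the packed quadratic step -/

namespace Vale.Agent.P154.E

open Vale.Agent.P154.G Finset

/-- packed value -/
def PV (n : ℕ) (r : ℕ → ℕ) : ℕ := ∑ m ∈ range n, r m * WW ^ m

/-- `X` is a packed decomposition of the functional `φ` of total mass `μ` into grid points -/
def OkP (n : ℕ) (G : ℕ → V 3) (X : ℕ) (φ : (V 3 → ℝ) → ℝ) (μ : ℝ) : Prop :=
  ∃ r : ℕ → ℕ, X = PV n r ∧ (∑ m ∈ range n, (r m : ℝ)) ≤ μ ∧
    ∀ F, SSub F → φ F ≤ μ * F vert - ∑ m ∈ range n, (r m : ℝ) * (F vert - F (G m))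

variable {n : ℕ} {G : ℕ → V 3}

lemma OkP.zero : OkP n G 0 (fun _ => 0) 0 :=
  ⟨fun _ => 0, by simp [PV], by simp, fun F _ => by simp⟩

lemma OkP.add {X Y : ℕ} {φ ψ : (V 3 → ℝ) → ℝ} {μ ν : ℝ} (h : OkP n G X φ μ) (h' : OkP n G Y ψ ν) :
    OkP n G (X + Y) (fun F => φ F + ψ F) (μ + ν) := by
  obtain ⟨r, h1, h2, h3⟩ := h
  obtain ⟨s, g1, g2, g3⟩ := h'
  refine ⟨fun m => r m + s m, ?_, ?_, fun F hF => ?_⟩
  · rw [h1, g1]
    unfold PV
    rw [← Finset.sum_add_distrib]
    exact Finset.sum_congr rfl fun m _ => by ring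
  · push_cast
    rw [Finset.sum_add_distrib]
    linarith
  · have e : ∑ m ∈ range n, ((r m + s m : ℕ) : ℝ) * (F vert - F (G m)) =
        ∑ m ∈ range n, (r m : ℝ) * (F vert - F (G m)) +
        ∑ m ∈ range n, (s m : ℝ) * (F vert - F (G m)) := by
      rw [← Finset.sum_add_distrib]
      exact Finset.sum_congr rfl fun m _ => by push_cast; ring
    have a1 := h3 F hF
    have a2 := g3 F hF
    simp only
    rw [e]
    linarith

lemma OkP.mul {X : ℕ} {φ : (V 3 → ℝ) → ℝ} {μ : ℝ} (a : ℕ) (h : OkP n G X φ μ) :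
    OkP n G (a * X) (fun F => a * φ F) (a * μ) := by
  obtain ⟨r, h1, h2, h3⟩ := h
  have ha : (0 : ℝ) ≤ a := Nat.cast_nonneg a
  refine ⟨fun m => a * r m, ?_, ?_, fun F hF => ?_⟩
  · rw [h1]
    unfold PV
    rw [Finset.mul_sum]
    exact Finset.sum_congr rfl fun m _ => by ring
  · push_cast
    rw [← Finset.mul_sum]
    exact mul_le_mul_of_nonneg_left h2 ha
  · have e : ∑ m ∈ range n, ((a * r m : ℕ) : ℝ) * (F vert - F (G m)) =
        a * ∑ m ∈ range n, (r m : ℝ) * (F vert - F (G m)) := by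
      rw [Finset.mul_sum]
      exact Finset.sum_congr rfl fun m _ => by push_cast; ring
    have a1 := mul_le_mul_of_nonneg_left (h3 F hF) ha
    simp only
    rw [e]
    linarith

/-- equations for the recursors -/
lemma linF_cons (a b : ℕ) (l m : List ℕ) : linF (a :: l) (b :: m) = a * b + linF l m := rfl
lemma linF_nil (m : List ℕ) : linF [] m = 0 := rfl
lemma linF_nil' (a : ℕ) (l : List ℕ) : linF (a :: l) [] = 0 := rfl
lemma quadF_cons (a : ℕ) (w r : List ℕ) (P : List (List ℕ)) :
    quadF (a :: w) (r :: P) = a * linF (a :: w) r + quadF w P := rfl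
lemma quadF_nil (P : List (List ℕ)) : quadF [] P = 0 := rfl
lemma quadF_nil' (a : ℕ) (w : List ℕ) : quadF (a :: w) [] = 0 := rfl

abbrev T3 := ℕ × ℕ × ℕ

/-- first row of the structure constants -/
noncomputable def trow (Q D : ℕ) (r0 : T3) (rows : List T3) (a : T3) (A : List T3) : List ℕ :=
  A.map (sp6 Q (2 * ST) D r0 rows a)

lemma rowrec_eq (Q D : ℕ) (r0 : T3) (rows : List T3) (a : T3) (A : List T3) :
    (@List.rec (ℕ × ℕ × ℕ) (fun _ => List ℕ) []
        (fun b _ ih2 => sp6 Q (2 * ST) D r0 rows a b :: ih2) A) = trow Q D r0 rows a A := by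
  induction A with
  | nil => rfl
  | cons b A ih => exact congrArg (fun l => sp6 Q (2 * ST) D r0 rows a b :: l) ih

lemma tens_cons (Q D : ℕ) (r0 : T3) (rows : List T3) (a : T3) (A : List T3) :
    tens Q D r0 rows (a :: A) =
      (sp6 Q ST D r0 rows a a :: trow Q D r0 rows a A) :: tens Q D r0 rows A := by
  rw [← rowrec_eq]
  rfl

lemma tens_nil (Q D : ℕ) (r0 : T3) (rows : List T3) : tens Q D r0 rows [] = [] := rfl

/-- linear functional of a pair of lists -/
def LS (S : T3 → ℝ) : List ℕ → List T3 → ℝ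
  | b :: w, y :: A => b * S y + LS S w A
  | _, _ => 0

/-- quadratic functional, symmetric `S` -/
def QS (S : T3 → T3 → ℝ) : List ℕ → List T3 → ℝ
  | a :: w, x :: A => a * (a * S x x + 2 * LS (S x) w A) + QS S w A
  | _, _ => 0

section
variable {Q D : ℕ} {r0 : T3} {rows : List T3} {S : (V 3 → ℝ) → T3 → T3 → ℝ}

/-- hypothesis on the structure constants: for all elements of the list -/
def HS (n : ℕ) (G : ℕ → V 3) (Q D : ℕ) (r0 : T3) (rows : List T3)
    (S : (V 3 → ℝ) → T3 → T3 → ℝ) (A : List T3) : Prop :=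
  ∀ s : ℕ, ∀ a ∈ A, ∀ b ∈ A, OkP n G (sp6 Q s D r0 rows a b) (fun F => s * S F a b) s

theorem ok_trow (a : T3) : ∀ (B : List T3), (∀ b ∈ B,
      OkP n G (sp6 Q (2 * ST) D r0 rows a b) (fun F => ((2 * ST : ℕ) : ℝ) * S F a b)
        ((2 * ST : ℕ) : ℝ)) →
      ∀ w : List ℕ, OkP n G (linF w (trow Q D r0 rows a B))
        (fun F => ((2 * ST : ℕ) : ℝ) * LS (S F a) w B) (((2 * ST : ℕ) : ℝ) * LS (fun _ => 1) w B)
  | [], _, [] => by
    have := OkP.zero (n := n) (G := G)
    simpa [linF_nil, LS] using this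
  | [], _, a' :: w => by
    have := OkP.zero (n := n) (G := G)
    simpa [trow, linF_nil', LS] using this
  | b :: B, _, [] => by
    have := OkP.zero (n := n) (G := G)
    simpa [linF_nil, LS] using this
  | b :: B, h, c :: w => by
    have h1 := (h b List.mem_cons_self).mul c
    have h2 := ok_trow a B (fun y hy => h y (List.mem_cons_of_mem _ hy)) w
    have h3 := h1.add h2
    have e : linF (c :: w) (trow Q D r0 rows a (b :: B)) =
        c * sp6 Q (2 * ST) D r0 rows a b + linF w (trow Q D r0 rows a B) := rfl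
    rw [e]
    convert h3 using 2
    · simp only [LS]
      ring
    · simp only [LS]
      ring

theorem ok_quad : ∀ (A : List T3) (w : List ℕ), HS n G Q D r0 rows S A →
    OkP n G (quadF w (tens Q D r0 rows A)) (fun F => (ST : ℝ) * QS (S F) w A)
      ((ST : ℝ) * QS (fun _ _ => 1) w A)
  | [], [], _ => by
    have := OkP.zero (n := n) (G := G)
    simpa [quadF_nil, QS] using this
  | [], a :: w, _ => by
    have := OkP.zero (n := n) (G := G)
    simpa [tens_nil, quadF_nil', QS] using this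
  | x :: A, [], _ => by
    have := OkP.zero (n := n) (G := G)
    simpa [quadF_nil, QS] using this
  | x :: A, a :: w, h => by
    have h0 := h ST x List.mem_cons_self x List.mem_cons_self
    have h1 := ok_trow (S := S) x A (fun b hb =>
      h (2 * ST) x List.mem_cons_self b (List.mem_cons_of_mem _ hb)) w
    have h2 := ok_quad A w fun s y hy z hz =>
      h s y (List.mem_cons_of_mem _ hy) z (List.mem_cons_of_mem _ hz)
    have h3 := (((h0.mul a).add h1).mul a).add h2
    rw [tens_cons, quadF_cons, linF_cons]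
    convert h3 using 2
    · simp only [QS]
      push_cast
      ring
    · simp only [QS]
      push_cast
      ring

end

lemma unp_zero (X s : ℕ) : unp 0 X s = [SW - s] := rfl
lemma unp_succ (k X s : ℕ) : unp (k + 1) X s =
    ((X % WW) / (SW * ST)) :: unp k (X / WW) (s + (X % WW) / (SW * ST)) := rfl

lemma WW_pos : 0 < WW := by unfold WW; positivity

lemma PV_succ (k : ℕ) (r : ℕ → ℕ) : PV (k + 1) r = r 0 + WW * PV k (fun m => r (m + 1)) := by
  unfold PV
  rw [Finset.sum_range_succ', Finset.mul_sum]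
  rw [add_comm]
  congr 1
  · simp
  · exact Finset.sum_congr rfl fun m _ => by rw [pow_succ]; ring

lemma unp_spec : ∀ (k : ℕ) (r : ℕ → ℕ) (s : ℕ), (∀ m, m < k + 1 → r m < WW) →
    unp k (PV (k + 1) r) s = (List.range k).map (fun m => r m / (SW * ST)) ++
      [SW - (s + ∑ m ∈ range k, r m / (SW * ST))]
  | 0, r, s, _ => by
    rw [unp_zero]
    simp
  | k + 1, r, s, h => by
    have h0 := h 0 (by omega)
    have e1 : PV (k + 1 + 1) r % WW = r 0 := by
      rw [PV_succ, Nat.add_mul_mod_self_left, Nat.mod_eq_of_lt h0]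
    have e2 : PV (k + 1 + 1) r / WW = PV (k + 1) (fun m => r (m + 1)) := by
      rw [PV_succ, Nat.add_mul_div_left _ _ WW_pos, Nat.div_eq_of_lt h0, Nat.zero_add]
    rw [unp_succ, e1, e2, unp_spec k (fun m => r (m + 1)) _ fun m hm => h (m + 1) (by omega)]
    rw [List.range_succ_eq_map, List.map_cons, List.map_map, Finset.sum_range_succ']
    simp only [List.cons_append, Function.comp_def, Nat.succ_eq_add_one]
    congr 3
    congr 1
    ring

lemma LS_eq (S : T3 → ℝ) : ∀ (A : List T3) (w : List ℕ), w.length = A.length →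
    LS S w A = ∑ l ∈ range A.length, (w.getD l 0 : ℝ) * S (A.getD l (0, 0, 0))
  | [], [], _ => by simp [LS]
  | [], a :: w, h => by simp at h
  | x :: A, [], h => by simp at h
  | x :: A, a :: w, h => by
    rw [LS, LS_eq S A w (by simpa using h), List.length_cons, Finset.sum_range_succ']
    simp
    ring

lemma QS_eq (S : T3 → T3 → ℝ) (hS : ∀ a b, S a b = S b a) :
    ∀ (A : List T3) (w : List ℕ), w.length = A.length →
    QS S w A = ∑ k ∈ range A.length, ∑ l ∈ range A.length,
      (w.getD k 0 : ℝ) * (w.getD l 0 : ℝ) * S (A.getD k (0, 0, 0)) (A.getD l (0, 0, 0))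
  | [], [], _ => by simp [QS]
  | [], a :: w, h => by simp at h
  | x :: A, [], h => by simp at h
  | x :: A, a :: w, h => by
    have hl : w.length = A.length := by simpa using h
    rw [QS, QS_eq S hS A w hl, LS_eq (S x) A w hl, List.length_cons, Finset.sum_range_succ']
    simp only [Finset.sum_range_succ', List.getD_cons_succ, List.getD_cons_zero]
    rw [Finset.sum_add_distrib]
    have e : ∑ k ∈ range A.length, ((w.getD k 0 : ℝ)) * (a : ℝ) * S (A.getD k (0, 0, 0)) x =
        ∑ l ∈ range A.length, (a : ℝ) * ((w.getD l 0 : ℝ)) * S x (A.getD l (0, 0, 0)) :=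
      Finset.sum_congr rfl fun k _ => by rw [hS]; ring
    rw [e]
    have e2 : (a : ℝ) * (a * S x x + 2 * ∑ l ∈ range A.length,
        (w.getD l 0 : ℝ) * S x (A.getD l (0, 0, 0))) = a * a * S x x +
        2 * ∑ l ∈ range A.length, (a : ℝ) * ((w.getD l 0 : ℝ)) * S x (A.getD l (0, 0, 0)) := by
      rw [mul_add, ← mul_assoc, mul_left_comm, Finset.mul_sum]
      congr 2
      exact Finset.sum_congr rfl fun k _ => by ring
    rw [e2]
    ring

lemma LS_one : ∀ (A : List T3) (w : List ℕ), w.length = A.length →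
    LS (fun _ => 1) w A = (w.sum : ℝ)
  | [], [], _ => by simp [LS]
  | [], a :: w, h => by simp at h
  | x :: A, [], h => by simp at h
  | x :: A, a :: w, h => by
    rw [LS, LS_one A w (by simpa using h), List.sum_cons]
    push_cast
    ring

lemma QS_one : ∀ (A : List T3) (w : List ℕ), w.length = A.length →
    QS (fun _ _ => 1) w A = (w.sum : ℝ) ^ 2
  | [], [], _ => by simp [QS]
  | [], a :: w, h => by simp at h
  | x :: A, [], h => by simp at h
  | x :: A, a :: w, h => by
    rw [QS, QS_one A w (by simpa using h), LS_one A w (by simpa using h), List.sum_cons]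
    push_cast
    ring

/-- one quadratic step -/
theorem step_gen {n : ℕ} {G : ℕ → V 3} (hGn : G n = vert)
    (hh : ∀ F, SSub F → ∀ m, m < n → 0 ≤ F vert - F (G m))
    {Q D : ℕ} {r0 : T3} {rows A : List T3} {w : List ℕ} {S : (V 3 → ℝ) → T3 → T3 → ℝ}
    (hlen : A.length = n + 1) (hw : w.length = n + 1) (hsum : w.sum = SW)
    (hHS : HS (n + 1) G Q D r0 rows S A)
    (hsymm : ∀ F, SSub F → ∀ a b, S F a b = S F b a) :
    (unp n (quadF w (tens Q D r0 rows A)) 0).length = n + 1 ∧
    (unp n (quadF w (tens Q D r0 rows A)) 0).sum = SW ∧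
    ∀ F, SSub F → ∑ k : Fin (n + 1), ∑ l : Fin (n + 1),
      ((w.getD k 0 : ℝ) / SW) * ((w.getD l 0 : ℝ) / SW) *
        S F (A.getD k (0, 0, 0)) (A.getD l (0, 0, 0)) ≤
      ∑ j : Fin (n + 1), (((unp n (quadF w (tens Q D r0 rows A)) 0).getD j 0 : ℕ) : ℝ) / SW *
        F (G j) := by
  obtain ⟨r, hX, hr, hF⟩ := ok_quad (S := S) A w hHS
  have hwA : w.length = A.length := by rw [hw, hlen]
  have hSW : (0 : ℝ) < SW := by unfold SW; positivity
  have hST : (0 : ℝ) < ST := by unfold ST; positivity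
  rw [QS_one A w hwA, hsum] at hr hF
  have hrN : ∑ m ∈ range (n + 1), r m ≤ ST * SW ^ 2 := by exact_mod_cast hr
  have hrm : ∀ m, m < n + 1 → r m < WW := by
    intro m hm
    have h1 : r m ≤ ∑ m ∈ range (n + 1), r m :=
      Finset.single_le_sum (fun _ _ => Nat.zero_le _) (Finset.mem_range.2 hm)
    have h2 : ST * SW ^ 2 < WW := by unfold ST SW WW; norm_num
    omega
  rw [hX, unp_spec n r 0 hrm]
  set q : ℕ → ℕ := fun m => r m / (SW * ST) with hq
  have hqs : ∑ m ∈ range n, q m ≤ SW := by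
    have h1 : ∀ m ∈ range n, q m * (SW * ST) ≤ r m := fun m _ => Nat.div_mul_le_self _ _
    have h2 := Finset.sum_le_sum h1
    rw [← Finset.sum_mul] at h2
    have h3 : ∑ m ∈ range n, r m ≤ ∑ m ∈ range (n + 1), r m := by
      rw [Finset.sum_range_succ]; omega
    have h4 : (∑ m ∈ range n, q m) * (SW * ST) ≤ SW * (SW * ST) := by
      calc _ ≤ _ := h2
        _ ≤ _ := h3
        _ ≤ _ := hrN
        _ = _ := by ring
    have h5 : 0 < SW * ST := by unfold SW ST; positivity
    exact Nat.le_of_mul_le_mul_right h4 h5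
  have hgetD : ∀ m, m < n → ((List.range n).map q ++ [SW - (0 + ∑ m ∈ range n, q m)]).getD m 0 =
      q m := by
    intro m hm
    rw [List.getD_append _ _ _ _ (by simpa using hm)]
    simp [List.getD_eq_getElem?_getD, hm]
  have hgetDn : ((List.range n).map q ++ [SW - (0 + ∑ m ∈ range n, q m)]).getD n 0 =
      SW - ∑ m ∈ range n, q m := by
    rw [List.getD_append_right _ _ _ _ (by simp)]
    simp
  refine ⟨by simp, ?_, fun F hFS => ?_⟩
  · rw [List.sum_append, List.sum_singleton, zero_add]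
    have h1 : ((List.range n).map q).sum = (range n).sum q := by
      rw [Finset.sum_range, ← List.sum_ofFn, List.ofFn_eq_map, ← List.map_coe_finRange_eq_range,
        List.map_map]
      rfl
    have h2 : (range n).sum q ≤ SW := hqs
    have h3 : SW - (range n).sum q + (range n).sum q = SW := Nat.sub_add_cancel h2
    rw [h1]
    change (range n).sum q + (SW - (range n).sum q) = SW
    rw [add_comm]
    exact h3
  · have hmain := hF F hFS
    beta_reduce at hmain
    rw [QS_eq (S F) (hsymm F hFS) A w hwA] at hmain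
    rw [hlen] at hmain
    have eL : ∑ k : Fin (n + 1), ∑ l : Fin (n + 1),
        ((w.getD k 0 : ℝ) / SW) * ((w.getD l 0 : ℝ) / SW) *
          S F (A.getD k (0, 0, 0)) (A.getD l (0, 0, 0)) =
        (∑ k ∈ range (n + 1), ∑ l ∈ range (n + 1), (w.getD k 0 : ℝ) * (w.getD l 0 : ℝ) *
          S F (A.getD k (0, 0, 0)) (A.getD l (0, 0, 0))) / SW ^ 2 := by
      rw [Finset.sum_div, Fin.sum_univ_eq_sum_range (fun k => ∑ l : Fin (n + 1),
        ((w.getD k 0 : ℝ) / SW) * ((w.getD l 0 : ℝ) / SW) *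
          S F (A.getD k (0, 0, 0)) (A.getD l (0, 0, 0)))]
      refine Finset.sum_congr rfl fun k _ => ?_
      rw [Finset.sum_div, Fin.sum_univ_eq_sum_range (fun l =>
        ((w.getD k 0 : ℝ) / SW) * ((w.getD l 0 : ℝ) / SW) *
          S F (A.getD k (0, 0, 0)) (A.getD l (0, 0, 0)))]
      refine Finset.sum_congr rfl fun l _ => ?_
      field_simp
    obtain ⟨T, hT⟩ : ∃ T : ℝ, T = ∑ k ∈ range (n + 1), ∑ l ∈ range (n + 1),
        (w.getD k 0 : ℝ) * (w.getD l 0 : ℝ) *
          S F (A.getD k (0, 0, 0)) (A.getD l (0, 0, 0)) := ⟨_, rfl⟩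
    rw [← hT] at hmain eL
    rw [eL, Fin.sum_univ_eq_sum_range (fun j =>
      ((((List.range n).map q ++ [SW - (0 + ∑ m ∈ range n, q m)]).getD j 0 : ℕ) : ℝ) / SW *
        F (G j)), Finset.sum_range_succ, hgetDn, hGn]
    have eR : ∑ x ∈ range n,
        ((((List.range n).map q ++ [SW - (0 + ∑ m ∈ range n, q m)]).getD x 0 : ℕ) : ℝ) / SW *
          F (G x) = ∑ x ∈ range n, (q x : ℝ) / SW * F (G x) :=
      Finset.sum_congr rfl fun x hx => by rw [hgetD x (Finset.mem_range.1 hx)]
    rw [eR, Nat.cast_sub hqs, Nat.cast_sum]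
    rw [div_le_iff₀ (by positivity)]
    rw [Finset.sum_range_succ _ n, hGn, sub_self, mul_zero, add_zero] at hmain
    have h7 : ∑ m ∈ range n, ((q m : ℝ) * (SW * ST)) * (F vert - F (G m)) ≤
        ∑ m ∈ range n, (r m : ℝ) * (F vert - F (G m)) := by
      refine Finset.sum_le_sum fun m hm => mul_le_mul_of_nonneg_right ?_
        (hh F hFS m (Finset.mem_range.1 hm))
      have : q m * (SW * ST) ≤ r m := Nat.div_mul_le_self _ _
      exact_mod_cast this
    have h8 : ∑ m ∈ range n, ((q m : ℝ) * (SW * ST)) * (F vert - F (G m)) =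
        (SW * ST) * ((∑ m ∈ range n, (q m : ℝ)) * F vert) -
          (SW * ST) * (SW * ∑ x ∈ range n, (q x : ℝ) / SW * F (G x)) := by
      rw [Finset.sum_mul, Finset.mul_sum, Finset.mul_sum, Finset.mul_sum,
        ← Finset.sum_sub_distrib]
      refine Finset.sum_congr rfl fun m _ => ?_
      field_simp
    have h9 : (ST : ℝ) * T ≤
        ST * ((∑ x ∈ range n, (q x : ℝ) / SW * F (G x) +
          (SW - ∑ m ∈ range n, (q m : ℝ)) / SW * F vert) * SW ^ 2) := by
      refine hmain.trans ?_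
      have h10 : (SW - ∑ m ∈ range n, (q m : ℝ)) / SW * F vert * SW ^ 2 =
          (SW - ∑ m ∈ range n, (q m : ℝ)) * F vert * SW := by field_simp
      rw [add_mul, h10]
      rw [h8] at h7
      nlinarith [h7]
    exact le_of_mul_le_mul_left h9 hST

end Vale.Agent.P154.E
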