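import Vale.Agent.P154N.ESpread
import Vale.Agent.P154N.EProof

/-! Checking a polar grid, and moving a law from one grid to another -/

namespace Vale.Agent.P154.E

open Vale.Agent.P154.G Finset

/-- the point number `m` of the grid `ga`, all of whose entries have mass `Γ` -/
noncomputable def gpt (Γ : ℕ) (ga : List T3) (m : ℕ) : V 3 :=
  fun i => vN (ga.getD m (Γ, 0, 0)) i / Γ

/-- check of one point -/
def okPt (Q Γ t k i : ℕ) (a : T3) : Bool :=
  Nat.beq (6 * Q * k * a.1) (Γ * (2 * (Q - t) * k + 3 * t * (k + i))) &&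
  (Nat.beq (6 * Q * k * a.2.1) (Γ * (2 * (Q - t) * k + 3 * t * (k - i))) &&
  Nat.beq (6 * Q * k * a.2.2) (Γ * (2 * (Q - t) * k)))

/-- check of the points `i, …, i + f` -/
def okPts (Q Γ t k : ℕ) : ℕ → ℕ → List T3 → Bool
  | _, _, [] => false
  | 0, i, a :: _ => okPt Q Γ t k i a
  | f + 1, i, a :: l => okPt Q Γ t k i a && okPts Q Γ t k f (i + 1) l

/-- check of one row -/
def okRow (Q Γ n : ℕ) (ga : List T3) (r : T3) : Bool :=
  Nat.ble r.1 Q &&
  ((Nat.beq r.2.1 0 && (Nat.beq r.1 0 && (Nat.ble r.2.2 n &&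
      (Nat.beq (3 * (ga.getD r.2.2 (Γ, 0, 0)).1) Γ &&
      (Nat.beq (3 * (ga.getD r.2.2 (Γ, 0, 0)).2.1) Γ &&
      Nat.beq (3 * (ga.getD r.2.2 (Γ, 0, 0)).2.2) Γ))))) ||
   (Nat.blt 0 r.2.1 && (Nat.ble (r.2.2 + r.2.1) n &&
      okPts Q Γ r.1 r.2.1 r.2.1 0 (ga.drop r.2.2))))

/-- check of the masses -/
def okMass (Γ : ℕ) : List T3 → Bool
  | [] => true
  | a :: l => Nat.beq (a.1 + a.2.1 + a.2.2) Γ && okMass Γ l

/-- ascending radii -/
def okAsc : T3 → List T3 → Bool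
  | _, [] => true
  | a, b :: l => Nat.blt a.1 b.1 && okAsc b l

/-- check of all rows -/
def okRows (Q Γ n : ℕ) (ga : List T3) : List T3 → Bool
  | [] => true
  | r :: l => okRow Q Γ n ga r && okRows Q Γ n ga l

/-- check of the grid -/
def okGrid (Q Γ n : ℕ) (r0 : T3) (rows ga : List T3) : Bool :=
  Nat.blt 0 Q && (Nat.blt 0 Γ && (Nat.beq ga.length (n + 1) && (okMass Γ ga &&
    (Nat.beq (ga.getD n (0, 0, 0)).1 Γ && (Nat.beq r0.1 0 && (okAsc r0 rows &&
      (okRow Q Γ n ga r0 && okRows Q Γ n ga rows)))))))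

lemma blt_iff {a b : ℕ} : Nat.blt a b = true ↔ a < b := by
  unfold Nat.blt
  rw [Nat.ble_eq]
  exact Iff.rfl

lemma okMass_spec {Γ : ℕ} : ∀ {l : List T3}, okMass Γ l = true →
    ∀ a ∈ l, a.1 + a.2.1 + a.2.2 = Γ
  | [], _, a, ha => absurd ha List.not_mem_nil
  | b :: l, h, a, ha => by
    rw [okMass, Bool.and_eq_true] at h
    rcases List.mem_cons.1 ha with h1 | h1
    · rw [h1]
      exact Nat.eq_of_beq_eq_true h.1
    · exact okMass_spec h.2 a h1

lemma okAsc_spec : ∀ {l : List T3} {a : T3}, okAsc a l = true → Asc a l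
  | [], _, _ => trivial
  | b :: l, a, h => by
    rw [okAsc, Bool.and_eq_true] at h
    exact ⟨blt_iff.1 h.1, okAsc_spec h.2⟩

lemma okRows_spec {Q Γ n : ℕ} {ga : List T3} : ∀ {l : List T3}, okRows Q Γ n ga l = true →
    ∀ r ∈ l, okRow Q Γ n ga r = true
  | [], _, a, ha => absurd ha List.not_mem_nil
  | b :: l, h, a, ha => by
    rw [okRows, Bool.and_eq_true] at h
    rcases List.mem_cons.1 ha with h1 | h1
    · rw [h1]
      exact h.1
    · exact okRows_spec h.2 a h1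

lemma okPts_spec {Q Γ t k : ℕ} (d : T3) : ∀ {l : List T3} {f i : ℕ},
    okPts Q Γ t k f i l = true → ∀ j, j ≤ f → okPt Q Γ t k (i + j) (l.getD j d) = true
  | [], f, i, h => by
    cases f <;> simp [okPts] at h
  | a :: l, 0, i, h => by
    intro j hj
    have : j = 0 := Nat.le_zero.1 hj
    subst this
    simpa [okPts] using h
  | a :: l, f + 1, i, h => by
    rw [okPts, Bool.and_eq_true] at h
    intro j hj
    cases j with
    | zero => simpa using h.1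
    | succ j =>
      have := okPts_spec d h.2 j (Nat.le_of_succ_le_succ hj)
      rw [List.getD_cons_succ]
      rwa [show i + (j + 1) = i + 1 + j by omega]

lemma vN_div_sg {Γ : ℕ} (hΓ : 0 < Γ) {a : T3} (ha : a.1 + a.2.1 + a.2.2 = Γ) :
    sg (fun i => vN a i / Γ) = 1 := by
  have hΓR : (0 : ℝ) < Γ := by exact_mod_cast hΓ
  have e : (a.1 : ℝ) + a.2.1 + a.2.2 = Γ := by exact_mod_cast ha
  unfold sg
  rw [Fin.sum_univ_three]
  show (a.1 : ℝ) / Γ + (a.2.1 : ℝ) / Γ + (a.2.2 : ℝ) / Γ = 1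
  rw [← add_div, ← add_div, e, div_self hΓR.ne']

lemma gpt_nn (Γ : ℕ) (ga : List T3) (m : ℕ) (i : Fin 3) : 0 ≤ gpt Γ ga m i :=
  div_nonneg (vN_nn _ i) (Nat.cast_nonneg _)

lemma gpt_sg {Γ : ℕ} {ga : List T3} (hΓ : 0 < Γ) (hm : ∀ a ∈ ga, a.1 + a.2.1 + a.2.2 = Γ)
    (m : ℕ) : sg (gpt Γ ga m) = 1 := by
  refine vN_div_sg hΓ ?_
  by_cases h : m < ga.length
  · rw [List.getD_eq_getElem _ _ h]
    exact hm _ (List.getElem_mem h)
  · rw [List.getD_eq_default _ _ (by omega)]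
    simp

lemma okRow_spec {Q Γ n : ℕ} (hQ : 0 < Q) (hΓ : 0 < Γ) {ga : List T3} {r : T3}
    (h : okRow Q Γ n ga r = true) : Good (gpt Γ ga) (n + 1) Q r := by
  have hΓR : (0 : ℝ) < Γ := by exact_mod_cast hΓ
  have hQR : (0 : ℝ) < Q := by exact_mod_cast hQ
  rw [okRow, Bool.and_eq_true, Bool.or_eq_true] at h
  obtain ⟨h1, h2⟩ := h
  have htQ : r.1 ≤ Q := Nat.le_of_ble_eq_true h1
  refine ⟨htQ, ?_⟩
  rcases h2 with h2 | h2
  · left
    simp only [Bool.and_eq_true] at h2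
    obtain ⟨a1, a2, a3, a4, a5, a6⟩ := h2
    have a4' : 3 * (ga.getD r.2.2 (Γ, 0, 0)).1 = Γ := Nat.eq_of_beq_eq_true a4
    have a5' : 3 * (ga.getD r.2.2 (Γ, 0, 0)).2.1 = Γ := Nat.eq_of_beq_eq_true a5
    have a6' : 3 * (ga.getD r.2.2 (Γ, 0, 0)).2.2 = Γ := Nat.eq_of_beq_eq_true a6
    refine ⟨Nat.eq_of_beq_eq_true a1, Nat.eq_of_beq_eq_true a2,
      Nat.lt_succ_of_le (Nat.le_of_ble_eq_true a3), ?_⟩
    have key : ∀ x : ℕ, 3 * x = Γ → (x : ℝ) / Γ = 1 / 3 := by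
      intro x hx
      have hx' : (Γ : ℝ) = 3 * x := by rw [← hx]; push_cast; ring
      rw [div_eq_iff hΓR.ne', hx']
      ring
    funext i
    unfold gpt pt
    fin_cases i
    · show ((ga.getD r.2.2 (Γ, 0, 0)).1 : ℝ) / Γ = (1 - 0 / (Q : ℝ)) / 3 + 0 / Q * ((1 + 0) / 2)
      rw [key _ a4']
      simp
    · show ((ga.getD r.2.2 (Γ, 0, 0)).2.1 : ℝ) / Γ = (1 - 0 / (Q : ℝ)) / 3 + 0 / Q * ((1 - 0) / 2)
      rw [key _ a5']
      simp
    · show ((ga.getD r.2.2 (Γ, 0, 0)).2.2 : ℝ) / Γ = (1 - 0 / (Q : ℝ)) / 3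
      rw [key _ a6']
      simp
  · right
    simp only [Bool.and_eq_true] at h2
    obtain ⟨a1, a2, a3⟩ := h2
    have hk : 0 < r.2.1 := blt_iff.1 a1
    have hkR : (0 : ℝ) < r.2.1 := by exact_mod_cast hk
    refine ⟨hk, Nat.lt_succ_of_le (Nat.le_of_ble_eq_true a2), fun i hi => ?_⟩
    have h3 := okPts_spec (Γ, 0, 0) a3 i hi
    rw [zero_add] at h3
    have eg : (ga.drop r.2.2).getD i (Γ, 0, 0) = ga.getD (r.2.2 + i) (Γ, 0, 0) := by
      rw [List.getD_eq_getElem?_getD, List.getD_eq_getElem?_getD, List.getElem?_drop]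
    rw [eg] at h3
    set a := ga.getD (r.2.2 + i) (Γ, 0, 0) with ha
    simp only [okPt, Bool.and_eq_true] at h3
    obtain ⟨b1, b2, b3⟩ := h3
    have b1' : 6 * Q * r.2.1 * a.1 = Γ * (2 * (Q - r.1) * r.2.1 + 3 * r.1 * (r.2.1 + i)) :=
      Nat.eq_of_beq_eq_true b1
    have b2' : 6 * Q * r.2.1 * a.2.1 = Γ * (2 * (Q - r.1) * r.2.1 + 3 * r.1 * (r.2.1 - i)) :=
      Nat.eq_of_beq_eq_true b2
    have b3' : 6 * Q * r.2.1 * a.2.2 = Γ * (2 * (Q - r.1) * r.2.1) :=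
      Nat.eq_of_beq_eq_true b3
    have c1 : 6 * (Q : ℝ) * r.2.1 * a.1 =
        Γ * (2 * (Q - r.1) * r.2.1 + 3 * r.1 * (r.2.1 + i)) := by
      have := congrArg (Nat.cast (R := ℝ)) b1'
      push_cast [Nat.cast_sub htQ] at this
      exact this
    have c2 : 6 * (Q : ℝ) * r.2.1 * a.2.1 =
        Γ * (2 * (Q - r.1) * r.2.1 + 3 * r.1 * (r.2.1 - i)) := by
      have := congrArg (Nat.cast (R := ℝ)) b2'
      push_cast [Nat.cast_sub htQ, Nat.cast_sub hi] at this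
      exact this
    have c3 : 6 * (Q : ℝ) * r.2.1 * a.2.2 = Γ * (2 * (Q - r.1) * r.2.1) := by
      have := congrArg (Nat.cast (R := ℝ)) b3'
      push_cast [Nat.cast_sub htQ] at this
      exact this
    have hd : (0 : ℝ) < 6 * Q * r.2.1 := by positivity
    have d1 : (a.1 : ℝ) = Γ * (2 * (Q - r.1) * r.2.1 + 3 * r.1 * (r.2.1 + i)) /
        (6 * Q * r.2.1) := by rw [eq_div_iff hd.ne', ← c1]; ring
    have d2 : (a.2.1 : ℝ) = Γ * (2 * (Q - r.1) * r.2.1 + 3 * r.1 * (r.2.1 - i)) /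
        (6 * Q * r.2.1) := by rw [eq_div_iff hd.ne', ← c2]; ring
    have d3 : (a.2.2 : ℝ) = Γ * (2 * (Q - r.1) * r.2.1) /
        (6 * Q * r.2.1) := by rw [eq_div_iff hd.ne', ← c3]; ring
    funext j
    unfold gpt
    rw [← ha]
    unfold pt
    fin_cases j
    · show (a.1 : ℝ) / Γ = (1 - (r.1 : ℝ) / Q) / 3 + (r.1 : ℝ) / Q * ((1 + (i : ℝ) / r.2.1) / 2)
      rw [d1]
      field_simp
      ring
    · show (a.2.1 : ℝ) / Γ = (1 - (r.1 : ℝ) / Q) / 3 + (r.1 : ℝ) / Q * ((1 - (i : ℝ) / r.2.1) / 2)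
      rw [d2]
      field_simp
      ring
    · show (a.2.2 : ℝ) / Γ = (1 - (r.1 : ℝ) / Q) / 3
      rw [d3]
      field_simp
      ring

/-- what the check gives -/
structure GridOk (Q Γ n : ℕ) (r0 : T3) (rows ga : List T3) : Prop where
  Qpos : 0 < Q
  Gpos : 0 < Γ
  len : ga.length = n + 1
  mass : ∀ a ∈ ga, a.1 + a.2.1 + a.2.2 = Γ
  nn : ∀ m i, 0 ≤ gpt Γ ga m i
  sg1 : ∀ m, sg (gpt Γ ga m) = 1
  last : gpt Γ ga n = vert
  r00 : r0.1 = 0
  asc : Asc r0 rows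
  good0 : Good (gpt Γ ga) (n + 1) Q r0
  good : ∀ r ∈ rows, Good (gpt Γ ga) (n + 1) Q r

theorem okGrid_spec {Q Γ n : ℕ} {r0 : T3} {rows ga : List T3}
    (h : okGrid Q Γ n r0 rows ga = true) : GridOk Q Γ n r0 rows ga := by
  simp only [okGrid, Bool.and_eq_true] at h
  obtain ⟨h1, h2, h3, h4, h5, h6, h7, h8, h9⟩ := h
  have hQ : 0 < Q := blt_iff.1 h1
  have hΓ : 0 < Γ := blt_iff.1 h2
  have hlen : ga.length = n + 1 := Nat.eq_of_beq_eq_true h3
  have hm := okMass_spec h4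
  have hΓR : (0 : ℝ) < Γ := by exact_mod_cast hΓ
  refine ⟨hQ, hΓ, hlen, hm, gpt_nn Γ ga, gpt_sg hΓ hm, ?_, Nat.eq_of_beq_eq_true h6,
    okAsc_spec h7, okRow_spec hQ hΓ h8, fun r hr => okRow_spec hQ hΓ (okRows_spec h9 r hr)⟩
  have hn : n < ga.length := by omega
  have e1 : (ga.getD n (0, 0, 0)).1 = Γ := Nat.eq_of_beq_eq_true h5
  rw [List.getD_eq_getElem _ _ hn] at e1
  have e2 := hm _ (List.getElem_mem hn)
  have e3 : ga.getD n (Γ, 0, 0) = (Γ, 0, 0) := by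
    rw [List.getD_eq_getElem _ _ hn]
    refine Prod.ext e1 (Prod.ext ?_ ?_)
    · show (ga[n]).2.1 = 0
      omega
    · show (ga[n]).2.2 = 0
      omega
  funext i
  unfold gpt
  rw [e3]
  fin_cases i
  · show (Γ : ℝ) / Γ = 1
    exact div_self hΓR.ne'
  · show ((0 : ℕ) : ℝ) / Γ = 0
    simp
  · show ((0 : ℕ) : ℝ) / Γ = 0
    simp

lemma GridOk.le_vert {Q Γ n : ℕ} {r0 : T3} {rows ga : List T3}
    (h : GridOk Q Γ n r0 rows ga) (F : V 3 → ℝ) (hF : SSub F) (m : ℕ) :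
    0 ≤ F vert - F (gpt Γ ga m) := by
  have h1 := hF.le_vert (h.nn m)
  rw [h.sg1, one_mul] at h1
  linarith

/-- unpacking -/
theorem unp_gen {n : ℕ} {G : ℕ → V 3} (hGn : G n = vert)
    (hh : ∀ F, SSub F → ∀ m, m < n → 0 ≤ F vert - F (G m)) {X : ℕ} {T : (V 3 → ℝ) → ℝ}
    (h : OkP (n + 1) G X (fun F => (ST : ℝ) * T F) ((ST : ℝ) * (SW : ℝ) ^ 2)) :
    (unp n X 0).length = n + 1 ∧ (unp n X 0).sum = SW ∧
    ∀ F, SSub F → T F ≤
      (∑ j : Fin (n + 1), (((unp n X 0).getD j 0 : ℕ) : ℝ) / SW * F (G j)) * (SW : ℝ) ^ 2 := by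
  obtain ⟨r, hX, hr, hF⟩ := h
  have hSW : (0 : ℝ) < SW := by unfold SW; positivity
  have hST : (0 : ℝ) < ST := by unfold ST; positivity
  have hrN : ∑ m ∈ range (n + 1), r m ≤ ST * SW ^ 2 := by exact_mod_cast hr
  have hrm : ∀ m, m < n + 1 → r m < WW := by
    intro m hm
    have h1 : r m ≤ ∑ m ∈ range (n + 1), r m :=
      Finset.single_le_sum (fun _ _ => Nat.zero_le _) (Finset.mem_range.2 hm)
    have h2 : ST * SW ^ 2 < WW := by unfold ST SW WW; norm_num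
    omega
  rw [hX, unp_spec n r 0 hrm]
  set q : ℕ → ℕ := fun m => r m / (SW * ST) with hq
  have hqs : ∑ m ∈ range n, q m ≤ SW := by
    have h1 : ∀ m ∈ range n, q m * (SW * ST) ≤ r m := fun m _ => Nat.div_mul_le_self _ _
    have h2 := Finset.sum_le_sum h1
    rw [← Finset.sum_mul] at h2
    have h3 : ∑ m ∈ range n, r m ≤ ∑ m ∈ range (n + 1), r m := by
      rw [Finset.sum_range_succ]; omega
    have h4 : (∑ m ∈ range n, q m) * (SW * ST) ≤ SW * (SW * ST) := by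
      calc _ ≤ _ := h2
        _ ≤ _ := h3
        _ ≤ _ := hrN
        _ = _ := by ring
    have h5 : 0 < SW * ST := by unfold SW ST; positivity
    exact Nat.le_of_mul_le_mul_right h4 h5
  have hgetD : ∀ m, m < n → ((List.range n).map q ++ [SW - (0 + ∑ m ∈ range n, q m)]).getD m 0 =
      q m := by
    intro m hm
    rw [List.getD_append _ _ _ _ (by simpa using hm)]
    simp [List.getD_eq_getElem?_getD, hm]
  have hgetDn : ((List.range n).map q ++ [SW - (0 + ∑ m ∈ range n, q m)]).getD n 0 =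
      SW - ∑ m ∈ range n, q m := by
    rw [List.getD_append_right _ _ _ _ (by simp)]
    simp
  refine ⟨by simp, ?_, fun F hFS => ?_⟩
  · rw [List.sum_append, List.sum_singleton, zero_add]
    have h1 : ((List.range n).map q).sum = (range n).sum q := by
      rw [Finset.sum_range, ← List.sum_ofFn, List.ofFn_eq_map, ← List.map_coe_finRange_eq_range,
        List.map_map]
      rfl
    have h2 : (range n).sum q ≤ SW := hqs
    have h3 : SW - (range n).sum q + (range n).sum q = SW := Nat.sub_add_cancel h2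
    rw [h1]
    change (range n).sum q + (SW - (range n).sum q) = SW
    rw [add_comm]
    exact h3
  · have hmain := hF F hFS
    beta_reduce at hmain
    obtain ⟨T', hT⟩ : ∃ T' : ℝ, T' = T F := ⟨_, rfl⟩
    rw [← hT] at hmain ⊢
    rw [Fin.sum_univ_eq_sum_range (fun j =>
      ((((List.range n).map q ++ [SW - (0 + ∑ m ∈ range n, q m)]).getD j 0 : ℕ) : ℝ) / SW *
        F (G j)), Finset.sum_range_succ, hgetDn, hGn]
    have eR : ∑ x ∈ range n,
        ((((List.range n).map q ++ [SW - (0 + ∑ m ∈ range n, q m)]).getD x 0 : ℕ) : ℝ) / SW *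
          F (G x) = ∑ x ∈ range n, (q x : ℝ) / SW * F (G x) :=
      Finset.sum_congr rfl fun x hx => by rw [hgetD x (Finset.mem_range.1 hx)]
    rw [eR, Nat.cast_sub hqs, Nat.cast_sum]
    rw [Finset.sum_range_succ _ n, hGn, sub_self, mul_zero, add_zero] at hmain
    have h7 : ∑ m ∈ range n, ((q m : ℝ) * (SW * ST)) * (F vert - F (G m)) ≤
        ∑ m ∈ range n, (r m : ℝ) * (F vert - F (G m)) := by
      refine Finset.sum_le_sum fun m hm => mul_le_mul_of_nonneg_right ?_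
        (hh F hFS m (Finset.mem_range.1 hm))
      have : q m * (SW * ST) ≤ r m := Nat.div_mul_le_self _ _
      exact_mod_cast this
    have h8 : ∑ m ∈ range n, ((q m : ℝ) * (SW * ST)) * (F vert - F (G m)) =
        (SW * ST) * ((∑ m ∈ range n, (q m : ℝ)) * F vert) -
          (SW * ST) * (SW * ∑ x ∈ range n, (q x : ℝ) / SW * F (G x)) := by
      rw [Finset.sum_mul, Finset.mul_sum, Finset.mul_sum, Finset.mul_sum,
        ← Finset.sum_sub_distrib]
      refine Finset.sum_congr rfl fun m _ => ?_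
      field_simp
    have h9 : (ST : ℝ) * T' ≤
        ST * ((∑ x ∈ range n, (q x : ℝ) / SW * F (G x) +
          (SW - ∑ m ∈ range n, (q m : ℝ)) / SW * F vert) * SW ^ 2) := by
      refine hmain.trans ?_
      have h10 : (SW - ∑ m ∈ range n, (q m : ℝ)) / SW * F vert * SW ^ 2 =
          (SW - ∑ m ∈ range n, (q m : ℝ)) * F vert * SW := by field_simp
      rw [add_mul, h10]
      rw [h8] at h7
      nlinarith [h7]
    exact le_of_mul_le_mul_left h9 hST

lemma SprF.okP {g : ℕ → V 3} {n0 X : ℕ} {Φ : (V 3 → ℝ) → ℝ} {M : ℝ} (h : SprF g n0 X Φ M) :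
    OkP n0 g X Φ M := by
  obtain ⟨r, h1, h2, h3⟩ := h
  exact ⟨r, h1, h3, h2⟩

lemma vN_eq (a : T3) : (![(a.1 : ℝ), a.2.1, a.2.2] : V 3) = vN a := rfl

/-- the packed linear step -/
noncomputable def lin3 (Q Γ : ℕ) (r0 : T3) (rows A : List T3) : List ℕ :=
  A.map fun a => sp3 Q (ST * SW) Γ r0 rows a.1 a.2.1 a.2.2

lemma ok_lin {Q Γ n : ℕ} {r0 : T3} {rows ga : List T3} (hG : GridOk Q Γ n r0 rows ga)
    {Γ' : ℕ} (hΓ' : 0 < Γ') : ∀ (A : List T3), (∀ a ∈ A, a.1 + a.2.1 + a.2.2 = Γ') →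
      ∀ w : List ℕ, OkP (n + 1) (gpt Γ ga) (linF w (lin3 Q Γ' r0 rows A))
        (fun F => (ST : ℝ) * (SW * LS (fun a => F (fun i => vN a i / Γ')) w A))
        ((ST : ℝ) * (SW * LS (fun _ => 1) w A))
  | [], _, [] => by
    have := OkP.zero (n := n + 1) (G := gpt Γ ga)
    simpa [linF_nil, LS] using this
  | [], _, a' :: w => by
    have := OkP.zero (n := n + 1) (G := gpt Γ ga)
    simpa [lin3, linF_nil', LS] using this
  | b :: B, _, [] => by
    have := OkP.zero (n := n + 1) (G := gpt Γ ga)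
    simpa [linF_nil, LS] using this
  | b :: B, h, c :: w => by
    have hΓR : (0 : ℝ) < Γ' := by exact_mod_cast hΓ'
    have h0 := (sp3_spr (s := ST * SW) hG.nn hG.sg1 hG.Qpos hΓ' hG.r00 hG.asc hG.good0 hG.good
      b.1 b.2.1 b.2.2).mono (Φ' := fun F => ((ST * SW : ℕ) : ℝ) *
        F (fun i => vN b i / Γ')) (M' := ((ST * SW : ℕ) : ℝ)) ?_ ?_
    · have h1 := h0.okP.mul c
      have h2 := ok_lin hG hΓ' B (fun y hy => h y (List.mem_cons_of_mem _ hy)) w
      have h3 := h1.add h2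
      have e : linF (c :: w) (lin3 Q Γ' r0 rows (b :: B)) =
          c * sp3 Q (ST * SW) Γ' r0 rows b.1 b.2.1 b.2.2 +
            linF w (lin3 Q Γ' r0 rows B) := rfl
      rw [e]
      convert h3 using 2
      · simp only [LS]
        push_cast
        ring
      · simp only [LS]
        push_cast
        ring
    · intro F hF
      rw [vN_eq]
      have e1 : (fun i => vN b i / (Γ' : ℝ)) = fun i => (1 / (Γ' : ℝ)) * vN b i := by
        funext i
        ring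
      rw [e1, hF.smul _ (by positivity) _ (vN_nn b)]
      refine le_of_eq ?_
      ring
    · have e2 : ((b.1 : ℝ) + b.2.1 + b.2.2) = Γ' := by
        exact_mod_cast h b List.mem_cons_self
      rw [e2]
      field_simp

/-- moving a law to another grid -/
theorem transfer {Q Γ n : ℕ} {r0 : T3} {rows ga : List T3} (hG : GridOk Q Γ n r0 rows ga)
    {Γ' n' : ℕ} (hΓ' : 0 < Γ') {A : List T3} (hA : A.length = n' + 1)
    (hmA : ∀ a ∈ A, a.1 + a.2.1 + a.2.2 = Γ') {w : List ℕ} (hw : w.length = n' + 1)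
    (hsum : w.sum = SW) :
    (unp n (linF w (lin3 Q Γ' r0 rows A)) 0).length = n + 1 ∧
    (unp n (linF w (lin3 Q Γ' r0 rows A)) 0).sum = SW ∧
    ∀ F, SSub F → ∑ k : Fin (n' + 1), (w.getD k 0 : ℝ) / SW * F (gpt Γ' A k) ≤
      ∑ j : Fin (n + 1), (((unp n (linF w (lin3 Q Γ' r0 rows A)) 0).getD j 0 : ℕ) : ℝ) / SW *
        F (gpt Γ ga j) := by
  have hwA : w.length = A.length := by rw [hw, hA]
  have hSW : (0 : ℝ) < SW := by unfold SW; positivity
  have h := ok_lin hG hΓ' A hmA w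
  have e1 : (ST : ℝ) * (SW * LS (fun _ => 1) w A) = (ST : ℝ) * (SW : ℝ) ^ 2 := by
    rw [LS_one A w hwA, hsum]
    ring
  rw [e1] at h
  obtain ⟨h1, h2, h3⟩ := unp_gen hG.last (fun F hF m _ => hG.le_vert F hF m) h
  refine ⟨h1, h2, fun F hF => ?_⟩
  have h4 := h3 F hF
  rw [LS_eq _ A w hwA, hA] at h4
  have e2 : ∑ k : Fin (n' + 1), (w.getD k 0 : ℝ) / SW * F (gpt Γ' A k) =
      (∑ l ∈ range (n' + 1), (w.getD l 0 : ℝ) *
        F (fun i => vN (A.getD l (0, 0, 0)) i / Γ')) / SW := by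
    rw [Fin.sum_univ_eq_sum_range (fun k => (w.getD k 0 : ℝ) / SW * F (gpt Γ' A k)),
      Finset.sum_div]
    refine Finset.sum_congr rfl fun k hk => ?_
    have hk' : k < A.length := by
      rw [hA]
      exact Finset.mem_range.1 hk
    have e3 : gpt Γ' A k = fun i => vN (A.getD k (0, 0, 0)) i / Γ' := by
      unfold gpt
      rw [List.getD_eq_getElem _ _ hk', List.getD_eq_getElem _ _ hk']
    rw [e3]
    ring
  rw [e2, div_le_iff₀ hSW]
  have h5 : (SW : ℝ) * (∑ l ∈ range (n' + 1), (w.getD l 0 : ℝ) *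
        F (fun i => vN (A.getD l (0, 0, 0)) i / Γ')) ≤
      SW * ((∑ j : Fin (n + 1), (((unp n (linF w (lin3 Q Γ' r0 rows A)) 0).getD j 0 : ℕ) : ℝ) /
        SW * F (gpt Γ ga j)) * SW) := by
    refine h4.trans (le_of_eq ?_)
    ring
  exact le_of_mul_le_mul_left h5 hSW

end Vale.Agent.P154.E
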