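import Vale.Agent.P154N.ELevel

/-! The grid of messages for `lam = -1/2` -/

namespace Vale.Agent.P154.E

open Vale.Agent.P154.G Finset

/-- equality test for lists -/
noncomputable def leq : List ℕ → List ℕ → Bool := fun l =>
  @List.rec ℕ (fun _ => List ℕ → Bool) (fun m => @List.rec ℕ (fun _ => Bool) true (fun _ _ _ => false) m)
    (fun a _ ih m => @List.rec ℕ (fun _ => Bool) false
      (fun b m' _ => cond (Nat.beq a b) (ih m') false) m) l

lemma leq_eq : ∀ l m : List ℕ, leq l m = true → l = m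
  | [], [], _ => rfl
  | [], b :: m, h => absurd h (by intro h; exact Bool.noConfusion h)
  | a :: l, [], h => absurd h (by intro h; exact Bool.noConfusion h)
  | a :: l, b :: m, h => by
    have e : leq (a :: l) (b :: m) = cond (Nat.beq a b) (leq l m) false := rfl
    rw [e] at h
    cases hab : Nat.beq a b with
    | false => rw [hab] at h; exact absurd h (by simp)
    | true =>
      rw [hab] at h
      rw [Nat.eq_of_beq_eq_true hab, leq_eq l m h]

/-- messages of the grid vectors, `lam = -1/2`, multiplied by `2 Γ` -/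
def kaOf (Γ : ℕ) (ga : List T3) : List T3 := ga.map fun a => (Γ - a.1, Γ - a.2.1, Γ - a.2.2)

lemma kaOf_length (Γ : ℕ) (ga : List T3) : (kaOf Γ ga).length = ga.length := by
  rw [kaOf, List.length_map]

lemma kaOf_mass {Γ : ℕ} {ga : List T3} (hgm : ∀ a ∈ ga, a.1 + a.2.1 + a.2.2 = Γ) :
    ∀ a ∈ kaOf Γ ga, a.1 + a.2.1 + a.2.2 = 2 * Γ := by
  intro a ha
  obtain ⟨b, hb, rfl⟩ := List.mem_map.mp ha
  have := hgm b hb
  simp only
  omega

lemma vN0 (a : T3) : vN a 0 = a.1 := rfl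
lemma vN1 (a : T3) : vN a 1 = a.2.1 := rfl
lemma vN2 (a : T3) : vN a 2 = a.2.2 := rfl

lemma kaOf_eq {Γ : ℕ} (hΓ : 0 < Γ) {n : ℕ} {ga : List T3} (hl : ga.length = n + 1)
    (hgm : ∀ a ∈ ga, a.1 + a.2.1 + a.2.2 = Γ) {g : ℕ → V 3} (hg1 : ∀ m, sg (g m) = 1)
    (hga : ∀ k, k < n + 1 → ∀ i, vN (ga.getD k (0, 0, 0)) i = Γ * g k i) :
    ∀ k, k < n + 1 → ∀ i, vN ((kaOf Γ ga).getD k (0, 0, 0)) i =
      ((2 * Γ : ℕ) : ℝ) * chan (-1 / 2) (g k) i := by
  intro k hk i
  have hΓr : (0 : ℝ) < Γ := by exact_mod_cast hΓ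
  have hkl : k < ga.length := by omega
  have hmem : ga.getD k (0, 0, 0) ∈ ga := by
    rw [List.getD_eq_getElem _ _ hkl]
    exact List.getElem_mem hkl
  have e1 : (kaOf Γ ga).getD k (0, 0, 0) = (Γ - (ga.getD k (0, 0, 0)).1,
      Γ - (ga.getD k (0, 0, 0)).2.1, Γ - (ga.getD k (0, 0, 0)).2.2) := by
    rw [List.getD_eq_getElem _ _ (by rw [kaOf_length]; exact hkl), List.getD_eq_getElem _ _ hkl]
    simp [kaOf]
  have hm := hgm _ hmem
  have h0 := hga k hk
  rw [e1]
  set a := ga.getD k (0, 0, 0) with ha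
  have hch : chan (-1 / 2) (g k) i = (1 - g k i) / 2 := by
    show (-1 / 2 : ℝ) * g k i + (1 - (-1 / 2 : ℝ)) / ((3 : ℕ) : ℝ) * sg (g k) = _
    rw [hg1]
    push_cast
    ring
  rw [hch]
  push_cast
  fin_cases i
  · have h := h0 0
    rw [vN0] at h
    show ((Γ - a.1 : ℕ) : ℝ) = _
    rw [Nat.cast_sub (by omega), h]
    simp only [Fin.zero_eta]
    ring
  · have h := h0 1
    rw [vN1] at h
    show ((Γ - a.2.1 : ℕ) : ℝ) = _
    rw [Nat.cast_sub (by omega), h]
    simp only [Fin.mk_one]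
    ring
  · have h := h0 2
    rw [vN2] at h
    show ((Γ - a.2.2 : ℕ) : ℝ) = _
    rw [Nat.cast_sub (by omega), h]
    simp only [Fin.reduceFinMk]
    ring

end Vale.Agent.P154.E
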