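import Vale.Agent.P154.GBd
import Vale.Agent.P154N.EDefs

/-! The decomposition of a vector over the polar grid bounds every symmetric sublinear
functional. -/

namespace Vale.Agent.P154.E

open Vale.Agent.P154.G Finset

/-- the point with radius `t / Q` and direction `u` -/
noncomputable def pt (Q t u : ℝ) : V 3 :=
  ![(1 - t / Q) / 3 + t / Q * ((1 + u) / 2), (1 - t / Q) / 3 + t / Q * ((1 - u) / 2),
    (1 - t / Q) / 3]

lemma sg3v (a b c : ℝ) : sg (![a, b, c] : V 3) = a + b + c := by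
  simp [sg, Fin.sum_univ_three]

lemma sg_pt (Q t u : ℝ) : sg (pt Q t u) = 1 := by
  unfold pt
  rw [sg3v]
  ring

lemma nn3 {a b c : ℝ} (ha : 0 ≤ a) (hb : 0 ≤ b) (hc : 0 ≤ c) : ∀ i, 0 ≤ (![a, b, c] : V 3) i := by
  intro i
  fin_cases i
  · exact ha
  · exact hb
  · exact hc

lemma pt_nn {Q t u : ℝ} (hQ : 0 < Q) (ht : 0 ≤ t) (htQ : t ≤ Q) (hu : 0 ≤ u) (hu1 : u ≤ 1) :
    ∀ i, 0 ≤ pt Q t u i := by
  have h1 : 0 ≤ t / Q := div_nonneg ht hQ.le
  have h2 : t / Q ≤ 1 := (div_le_one hQ).2 htQ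
  refine nn3 ?_ ?_ ?_
  · have : 0 ≤ t / Q * ((1 + u) / 2) := mul_nonneg h1 (by linarith)
    linarith
  · have : 0 ≤ t / Q * ((1 - u) / 2) := mul_nonneg h1 (by linarith)
    linarith
  · linarith

/-- packed lower bounds for a decomposition of the functional `Φ` with total mass `M` -/
def SprF (g : ℕ → V 3) (n0 X : ℕ) (Φ : (V 3 → ℝ) → ℝ) (M : ℝ) : Prop :=
  ∃ r : ℕ → ℕ, X = ∑ m ∈ range n0, r m * WW ^ m ∧
    (∀ F, SSub F → Φ F ≤ M * F vert - ∑ m ∈ range n0, (r m : ℝ) * (F vert - F (g m))) ∧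
    ∑ m ∈ range n0, (r m : ℝ) ≤ M

variable {g : ℕ → V 3} {n0 : ℕ}

lemma SprF.add {X X' : ℕ} {Φ Φ' : (V 3 → ℝ) → ℝ} {M M' : ℝ} (h : SprF g n0 X Φ M)
    (h' : SprF g n0 X' Φ' M') : SprF g n0 (X + X') (fun F => Φ F + Φ' F) (M + M') := by
  obtain ⟨r, h1, h2, h3⟩ := h
  obtain ⟨r', h1', h2', h3'⟩ := h'
  refine ⟨fun m => r m + r' m, ?_, ?_, ?_⟩
  · rw [h1, h1', ← sum_add_distrib]
    exact sum_congr rfl fun m _ => by ring
  · intro F hF
    have a := h2 F hF
    have b := h2' F hF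
    have e : ∑ m ∈ range n0, ((r m + r' m : ℕ) : ℝ) * (F vert - F (g m)) =
        ∑ m ∈ range n0, (r m : ℝ) * (F vert - F (g m)) +
          ∑ m ∈ range n0, (r' m : ℝ) * (F vert - F (g m)) := by
      rw [← sum_add_distrib]
      exact sum_congr rfl fun m _ => by push_cast; ring
    rw [e]
    linarith
  · have e : ∑ m ∈ range n0, ((r m + r' m : ℕ) : ℝ) =
        ∑ m ∈ range n0, (r m : ℝ) + ∑ m ∈ range n0, (r' m : ℝ) := by
      rw [← sum_add_distrib]
      exact sum_congr rfl fun m _ => by push_cast; ring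
    rw [e]
    linarith

lemma SprF.mono {X : ℕ} {Φ Φ' : (V 3 → ℝ) → ℝ} {M M' : ℝ} (h : SprF g n0 X Φ M)
    (hΦ : ∀ F, SSub F → Φ' F ≤ Φ F) (hM : M' = M) : SprF g n0 X Φ' M' := by
  obtain ⟨r, h1, h2, h3⟩ := h
  subst hM
  exact ⟨r, h1, fun F hF => (hΦ F hF).trans (h2 F hF), h3⟩

lemma SprF.zero' {Φ : (V 3 → ℝ) → ℝ} {M : ℝ} (hM : 0 ≤ M)
    (h : ∀ F, SSub F → Φ F ≤ M * F vert) : SprF g n0 0 Φ M :=
  ⟨fun _ => 0, by simp, fun F hF => by simpa using h F hF, by simpa using hM⟩

lemma SprF.single (hg : ∀ m i, 0 ≤ g m i) (hg1 : ∀ m, sg (g m) = 1) {k a : ℕ} {A : ℝ}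
    (hk : k < n0) (ha : (a : ℝ) ≤ A) : SprF g n0 (a * WW ^ k) (fun F => A * F (g k)) A := by
  refine ⟨fun m => if m = k then a else 0, ?_, ?_, ?_⟩
  · rw [sum_eq_single k]
    · simp
    · intro b _ hb
      simp [hb]
    · intro h
      exact absurd (mem_range.2 hk) h
  · intro F hF
    have h1 := hF.le_vert (hg k)
    rw [hg1, one_mul] at h1
    rw [sum_eq_single k]
    · simp only [if_true]
      nlinarith
    · intro b _ hb
      simp [hb]
    · intro h
      exact absurd (mem_range.2 hk) h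
  · rw [sum_eq_single k]
    · simpa using ha
    · intro b _ hb
      simp [hb]
    · intro h
      exact absurd (mem_range.2 hk) h

/-- two-point splitting -/
lemma SSub.split {F : V 3 → ℝ} (hF : SSub F) {a b : ℝ} (ha : 0 ≤ a) (hb : 0 ≤ b) {c d e : V 3}
    (hc : ∀ i, 0 ≤ c i) (hd : ∀ i, 0 ≤ d i) (he : ∀ i, e i = a * c i + b * d i) :
    F e ≤ a * F c + b * F d := by
  have e1 : e = fun i => a * c i + b * d i := funext he
  rw [e1, ← hF.smul a ha c hc, ← hF.smul b hb d hd]
  exact hF.add _ _ (fun i => mul_nonneg ha (hc i)) fun i => mul_nonneg hb (hd i)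

/-- the grid contains the row `(t, n, off)` -/
def Good (g : ℕ → V 3) (n0 Q : ℕ) (r : ℕ × ℕ × ℕ) : Prop :=
  r.1 ≤ Q ∧ ((r.2.1 = 0 ∧ r.1 = 0 ∧ r.2.2 < n0 ∧ g r.2.2 = pt Q 0 0) ∨
    (0 < r.2.1 ∧ r.2.2 + r.2.1 < n0 ∧
      ∀ i : ℕ, i ≤ r.2.1 → g (r.2.2 + i) = pt Q r.1 ((i : ℝ) / r.2.1)))

lemma pt_zero (Q u : ℝ) : pt Q 0 u = pt Q 0 0 := by
  unfold pt
  simp

lemma rowP_pos {n off num den e dl : ℕ} (hn : 0 < n) : rowP n off num den e dl =
    ((num * (dl - (e * n) % dl)) / (den * dl) + ((num * ((e * n) % dl)) / (den * dl)) * WW) *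
      WW ^ (off + (e * n) / dl) := by
  unfold rowP
  have h : Nat.beq n 0 = false := by
    cases n with
    | zero => exact absurd hn (lt_irrefl _)
    | succ k => rfl
  rw [h]
  rfl

lemma rowP_zero {off num den e dl : ℕ} : rowP 0 off num den e dl = (num / den) * WW ^ off := rfl

theorem row_spr (hg : ∀ m i, 0 ≤ g m i) (hg1 : ∀ m, sg (g m) = 1) {Q : ℕ}
    {r : ℕ × ℕ × ℕ} (hr : Good g n0 Q r) (hQ : 0 < Q) {num den e dl : ℕ} (hden : 0 < den)
    (hdl : 0 < dl) (he : e ≤ dl) :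
    SprF g n0 (rowP r.2.1 r.2.2 num den e dl)
      (fun F => (num : ℝ) / den * F (pt Q r.1 ((e : ℝ) / dl))) ((num : ℝ) / den) := by
  obtain ⟨t, n, off⟩ := r
  obtain ⟨htQ, hr⟩ := hr
  simp only at hr htQ ⊢
  rcases hr with ⟨h1, h2, h3, h4⟩ | ⟨hn, hoff, hgi⟩
  · subst h1
    subst h2
    rw [rowP_zero]
    refine (SprF.single hg hg1 h3 (A := (num : ℝ) / den) Nat.cast_div_le).mono ?_ rfl
    intro F _
    rw [h4, Nat.cast_zero, pt_zero]
  · rw [rowP_pos hn]
    set i := (e * n) / dl with hi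
    set m := (e * n) % dl with hm
    have hdm : dl * i + m = e * n := Nat.div_add_mod _ _
    have hml : m < dl := Nat.mod_lt _ hdl
    have hin : i ≤ n := by
      rw [hi]
      exact Nat.div_le_of_le_mul (Nat.mul_le_mul_right n he)
    have hnR : (0 : ℝ) < n := by exact_mod_cast hn
    have hdR : (0 : ℝ) < dl := by exact_mod_cast hdl
    have hden' : (0 : ℝ) < den := by exact_mod_cast hden
    have hdmR : (dl : ℝ) * i + m = e * n := by exact_mod_cast hdm
    have hA : ((num * (dl - m)) / (den * dl) : ℕ) ≤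
        (num : ℝ) / den * (1 - (m : ℝ) / dl) := by
      refine Nat.cast_div_le.trans (le_of_eq ?_)
      rw [Nat.cast_mul, Nat.cast_mul, Nat.cast_sub hml.le]
      field_simp
    have hB : ((num * m) / (den * dl) : ℕ) ≤ (num : ℝ) / den * ((m : ℝ) / dl) := by
      refine Nat.cast_div_le.trans (le_of_eq ?_)
      rw [Nat.cast_mul, Nat.cast_mul]
      field_simp
    have hk0 : 0 ≤ (num : ℝ) / den := by positivity
    have hm0 : (0 : ℝ) ≤ (m : ℝ) / dl := by positivity
    have hm1 : (m : ℝ) / dl ≤ 1 := (div_le_one hdR).2 (by exact_mod_cast hml.le)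
    rcases Nat.eq_zero_or_pos m with hm00 | hmpos
    · -- on a grid point
      have e0 : (num * m) / (den * dl) = 0 := by rw [hm00]; simp
      rw [e0, zero_mul, add_zero]
      refine (SprF.single hg hg1 (k := off + i) (by omega) hA).mono ?_ (by rw [hm00]; simp)
      intro F _
      have e1 : (e : ℝ) / dl = (i : ℝ) / n := by
        rw [hm00, Nat.cast_zero, add_zero] at hdmR
        rw [div_eq_div_iff hdR.ne' hnR.ne', ← hdmR]
        ring
      rw [hgi i hin, hm00, e1]
      simp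
    · have hin' : i + 1 ≤ n := by
        rcases Nat.lt_or_ge i n with h | h
        · exact h
        · exfalso
          have : i = n := le_antisymm hin h
          have h2 : e * n ≤ dl * n := Nat.mul_le_mul_right n he
          rw [← hdm, this] at h2
          omega
      have hs := (SprF.single (n0 := n0) hg hg1 (k := off + i) (by omega) hA).add
        (SprF.single (n0 := n0) hg hg1 (k := off + (i + 1)) (by omega) hB)
      have eX : (num * (dl - m)) / (den * dl) * WW ^ (off + i) +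
          (num * m) / (den * dl) * WW ^ (off + (i + 1)) =
          ((num * (dl - m)) / (den * dl) + (num * m) / (den * dl) * WW) * WW ^ (off + i) := by
        rw [← add_assoc, pow_succ]
        ring
      rw [eX] at hs
      refine hs.mono ?_ (by ring)
      intro F hF
      have t0 : (0 : ℝ) ≤ t := Nat.cast_nonneg _
      have tQ : (t : ℝ) ≤ Q := by exact_mod_cast htQ
      have hQ' : (0 : ℝ) < Q := by exact_mod_cast hQ
      have h1 := SSub.split hF (a := 1 - (m : ℝ) / dl) (b := (m : ℝ) / dl) (by linarith) hm0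
        (c := g (off + i)) (d := g (off + (i + 1))) (e := pt Q t ((e : ℝ) / dl)) (hg _) (hg _) ?_
      · have h2 := mul_le_mul_of_nonneg_left h1 hk0
        linarith
      · have e1 : (e : ℝ) / dl = (1 - (m : ℝ) / dl) * ((i : ℝ) / n) +
            (m : ℝ) / dl * (((i + 1 : ℕ) : ℝ) / n) := by
          have : (e : ℝ) = (dl * i + m) / n := by rw [hdmR]; field_simp
          rw [this]
          push_cast
          field_simp
          ring
        intro j
        rw [hgi i hin, hgi (i + 1) hin', e1]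
        unfold pt
        fin_cases j
        · simp
          ring
        · simp
          ring
        · simp
          ring

/-- ascending radii -/
def Asc : ℕ × ℕ × ℕ → List (ℕ × ℕ × ℕ) → Prop
  | _, [] => True
  | a, b :: l => a.1 < b.1 ∧ Asc b l

/-- the sorted vector with total mass `Z` -/
noncomputable def vc (Z dl e : ℝ) : V 3 :=
  ![(Z - dl) / 3 + (dl + e) / 2, (Z - dl) / 3 + (dl - e) / 2, (Z - dl) / 3]

lemma vc_nn {Z dl e : ℝ} (h1 : dl ≤ Z) (h2 : 0 ≤ e) (h3 : e ≤ dl) : ∀ i, 0 ≤ vc Z dl e i :=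
  nn3 (by linarith) (by linarith) (by linarith)

lemma sg_vc (Z dl e : ℝ) : sg (vc Z dl e) = Z := by
  unfold vc
  rw [sg3v]
  ring

lemma sprd_cons (Q s D Z dl e : ℕ) (r1 : ℕ × ℕ × ℕ) (rows : List (ℕ × ℕ × ℕ))
    (r0 : ℕ × ℕ × ℕ) : sprd Q s D Z dl e (r1 :: rows) r0 =
    cond (Nat.ble (Q * dl) (r1.1 * Z))
      (rowP r0.2.1 r0.2.2 (s * (r1.1 * Z - Q * dl)) (D * (r1.1 - r0.1)) e dl +
       rowP r1.2.1 r1.2.2 (s * (Q * dl - r0.1 * Z)) (D * (r1.1 - r0.1)) e dl)
      (sprd Q s D Z dl e rows r1) := rfl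

theorem sprd_spr (hg : ∀ m i, 0 ≤ g m i) (hg1 : ∀ m, sg (g m) = 1) {Q s D Z dl e : ℕ}
    (hQ : 0 < Q) (hD : 0 < D) (hZ : dl ≤ Z) (he : e ≤ dl) :
    ∀ (rows : List (ℕ × ℕ × ℕ)) (r0 : ℕ × ℕ × ℕ), Asc r0 rows → Good g n0 Q r0 →
      (∀ r ∈ rows, Good g n0 Q r) → r0.1 * Z ≤ Q * dl →
      SprF g n0 (sprd Q s D Z dl e rows r0) (fun F => (s : ℝ) / D * F (vc Z dl e))
        ((s : ℝ) / D * Z)
  | [], r0, _, _, _, _ => by
    have hk : 0 ≤ (s : ℝ) / D := by positivity
    have hv := vc_nn (Z := Z) (dl := dl) (e := e) (by exact_mod_cast hZ) (Nat.cast_nonneg _)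
      (by exact_mod_cast he)
    refine SprF.zero' (by positivity) fun F hF => ?_
    have h1 := hF.le_vert hv
    rw [sg_vc] at h1
    rw [mul_assoc]
    exact mul_le_mul_of_nonneg_left h1 hk
  | r1 :: rows, r0, hasc, h0, hall, hx => by
    have hk : 0 ≤ (s : ℝ) / D := by positivity
    have hv := vc_nn (Z := Z) (dl := dl) (e := e) (by exact_mod_cast hZ) (Nat.cast_nonneg _)
      (by exact_mod_cast he)
    rw [sprd_cons]
    by_cases hc : Q * dl ≤ r1.1 * Z
    · rw [Nat.ble_eq_true_of_le hc, cond_true]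
      have h1 := hall r1 List.mem_cons_self
      have hΔ : 0 < r1.1 - r0.1 := Nat.sub_pos_of_lt hasc.1
      have hden : 0 < D * (r1.1 - r0.1) := Nat.mul_pos hD hΔ
      have hΔR : ((r1.1 - r0.1 : ℕ) : ℝ) = (r1.1 : ℝ) - r0.1 := Nat.cast_sub hasc.1.le
      have hΔ0 : (0 : ℝ) < (r1.1 : ℝ) - r0.1 := by
        rw [← hΔR]; exact_mod_cast hΔ
      have hDR : (0 : ℝ) < D := by exact_mod_cast hD
      have hQR : (0 : ℝ) < Q := by exact_mod_cast hQ
      rcases Nat.eq_zero_or_pos dl with hd0 | hdl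
      · -- the centre direction
        subst hd0
        have he0 : e = 0 := Nat.le_zero.1 he
        subst he0
        have hx' : r0.1 * Z = 0 := by simpa using hx
        have e2 : rowP r1.2.1 r1.2.2 (s * (Q * 0 - r0.1 * Z)) (D * (r1.1 - r0.1)) 0 0 = 0 := by
          have : s * (Q * 0 - r0.1 * Z) = 0 := by rw [hx']; simp
          rw [this]
          rcases Nat.eq_zero_or_pos r1.2.1 with h | h
          · rw [h, rowP_zero]; simp
          · rw [rowP_pos h]; simp
        rw [e2, add_zero]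
        have htriv : ∀ F, SSub F → (s : ℝ) / D * F (vc Z (0 : ℕ) (0 : ℕ)) ≤
            (s : ℝ) / D * Z * F vert := fun F hF => by
          have h2 := hF.le_vert hv
          rw [sg_vc] at h2
          rw [mul_assoc]
          exact mul_le_mul_of_nonneg_left h2 hk
        rcases Nat.eq_zero_or_pos r0.2.1 with h | h
        · have hz : r0.1 = 0 ∧ r0.2.2 < n0 ∧ g r0.2.2 = pt Q 0 0 := by
            rcases h0.2 with ⟨-, h3, h4, h5⟩ | ⟨h3, -, -⟩
            · exact ⟨h3, h4, h5⟩
            · omega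
          rw [h, rowP_zero, hz.1]
          have hr1 : 0 < r1.1 := by have := hasc.1; omega
          have hr1R : (0 : ℝ) < r1.1 := by exact_mod_cast hr1
          refine (SprF.single hg hg1 hz.2.1 (A := (s : ℝ) / D * Z) ?_).mono ?_ rfl
          · refine Nat.cast_div_le.trans (le_of_eq ?_)
            push_cast
            simp
            field_simp
          · intro F hF
            have e3 : vc Z (0 : ℕ) (0 : ℕ) = fun i => (Z : ℝ) * g r0.2.2 i := by
              rw [hz.2.2]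
              unfold vc pt
              funext i
              fin_cases i <;> simp <;> ring
            rw [e3, hF.smul Z (Nat.cast_nonneg _) _ (hg _), mul_assoc]
        · rw [rowP_pos h]
          simp only [Nat.mul_zero, Nat.div_zero, Nat.zero_mul, Nat.add_zero]
          exact SprF.zero' (by positivity) htriv
      · have a := row_spr hg hg1 h0 hQ (num := s * (r1.1 * Z - Q * dl)) hden hdl he
        have b := row_spr hg hg1 h1 hQ (num := s * (Q * dl - r0.1 * Z)) hden hdl he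
        have c1 : ((s * (r1.1 * Z - Q * dl) : ℕ) : ℝ) = s * (r1.1 * Z - Q * dl) := by
          rw [Nat.cast_mul, Nat.cast_sub hc]
          push_cast
          ring
        have c2 : ((s * (Q * dl - r0.1 * Z) : ℕ) : ℝ) = s * (Q * dl - r0.1 * Z) := by
          rw [Nat.cast_mul, Nat.cast_sub hx]
          push_cast
          ring
        have c3 : ((D * (r1.1 - r0.1) : ℕ) : ℝ) = D * (r1.1 - r0.1) := by
          rw [Nat.cast_mul, hΔR]
        refine (a.add b).mono ?_ ?_
        · intro F hF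
          rw [c1, c2, c3]
          have hA : 0 ≤ ((r1.1 : ℝ) * Z - Q * dl) / (r1.1 - r0.1) :=
            div_nonneg (by have : ((Q * dl : ℕ) : ℝ) ≤ ((r1.1 * Z : ℕ) : ℝ) := by exact_mod_cast hc
                           push_cast at this; linarith) hΔ0.le
          have hB : 0 ≤ ((Q : ℝ) * dl - r0.1 * Z) / (r1.1 - r0.1) :=
            div_nonneg (by have : ((r0.1 * Z : ℕ) : ℝ) ≤ ((Q * dl : ℕ) : ℝ) := by exact_mod_cast hx
                           push_cast at this; linarith) hΔ0.le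
          have hu0 : 0 ≤ (e : ℝ) / dl := by positivity
          have hu1 : (e : ℝ) / dl ≤ 1 :=
            (div_le_one (by exact_mod_cast hdl)).2 (by exact_mod_cast he)
          have hdlR : (0 : ℝ) < dl := by exact_mod_cast hdl
          have h2 := SSub.split hF hA hB (c := pt Q r0.1 ((e : ℝ) / dl))
            (d := pt Q r1.1 ((e : ℝ) / dl)) (e := vc Z dl e)
            (pt_nn hQR (Nat.cast_nonneg _) (by exact_mod_cast h0.1) hu0 hu1)
            (pt_nn hQR (Nat.cast_nonneg _) (by exact_mod_cast h1.1) hu0 hu1) ?_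
          · have h3 := mul_le_mul_of_nonneg_left h2 hk
            refine h3.trans (le_of_eq ?_)
            field_simp
          · intro j
            unfold vc pt
            fin_cases j
            · simp
              field_simp
              ring
            · simp
              field_simp
              ring
            · simp
              field_simp
              ring
        · rw [c1, c2, c3]
          field_simp
          ring
    · have hc' : Nat.ble (Q * dl) (r1.1 * Z) = false := by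
        rw [← Bool.not_eq_true]
        intro h
        exact hc (Nat.le_of_ble_eq_true h)
      rw [hc', cond_false]
      exact sprd_spr hg hg1 hQ hD hZ he rows r1 hasc.2 (hall r1 List.mem_cons_self)
        (fun r hr => hall r (List.mem_cons_of_mem _ hr)) (by omega)

lemma swap01 {F : V 3 → ℝ} (hF : SSub F) {a b c : ℝ} (ha : 0 ≤ a) (hb : 0 ≤ b) (hc : 0 ≤ c) :
    F ![a, b, c] = F ![b, a, c] := by
  have h := hF.symm (Equiv.swap 0 1) ![b, a, c] (nn3 hb ha hc)
  rw [← h]
  congr 1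
  funext i
  fin_cases i <;> simp [Equiv.swap_apply_def]

lemma swap12 {F : V 3 → ℝ} (hF : SSub F) {a b c : ℝ} (ha : 0 ≤ a) (hb : 0 ≤ b) (hc : 0 ≤ c) :
    F ![a, b, c] = F ![a, c, b] := by
  have h := hF.symm (Equiv.swap 1 2) ![a, c, b] (nn3 ha hc hb)
  rw [← h]
  congr 1
  funext i
  fin_cases i <;> simp [Equiv.swap_apply_def]

lemma mn_eq (a b : ℕ) : mn a b = min a b := by
  unfold mn
  by_cases h : a ≤ b
  · rw [Nat.ble_eq_true_of_le h, cond_true, min_eq_left h]
  · have hc' : Nat.ble a b = false := by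
      rw [← Bool.not_eq_true]
      intro h'
      exact h (Nat.le_of_ble_eq_true h')
    rw [hc', cond_false, min_eq_right (by omega)]

lemma mx_eq (a b : ℕ) : mx a b = max a b := by
  unfold mx
  by_cases h : a ≤ b
  · rw [Nat.ble_eq_true_of_le h, cond_true, max_eq_right h]
  · have hc' : Nat.ble a b = false := by
      rw [← Bool.not_eq_true]
      intro h'
      exact h (Nat.le_of_ble_eq_true h')
    rw [hc', cond_false, max_eq_left (by omega)]

/-- sorting -/
lemma sorted3 (x y z : ℕ) : ∃ a b c : ℕ, c ≤ b ∧ b ≤ a ∧ a + b + c = x + y + z ∧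
    mn x (mn y z) = c ∧ mx x (mx y z) = a ∧
    ∀ F : V 3 → ℝ, SSub F → F ![(x : ℝ), y, z] = F ![(a : ℝ), b, c] := by
  have hx : (0 : ℝ) ≤ x := Nat.cast_nonneg _
  have hy : (0 : ℝ) ≤ y := Nat.cast_nonneg _
  have hz : (0 : ℝ) ≤ z := Nat.cast_nonneg _
  simp only [mn_eq, mx_eq]
  rcases le_total x y with h1 | h1 <;> rcases le_total y z with h2 | h2 <;>
    rcases le_total x z with h3 | h3
  · exact ⟨z, y, x, h1, h2, by omega, by omega, by omega, fun F hF => by
      rw [swap01 hF hx hy hz, swap12 hF hy hx hz, swap01 hF hy hz hx]⟩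
  · exact ⟨z, y, x, h1, h2, by omega, by omega, by omega, fun F hF => by
      rw [swap01 hF hx hy hz, swap12 hF hy hx hz, swap01 hF hy hz hx]⟩
  · exact ⟨y, z, x, h3, h2, by omega, by omega, by omega, fun F hF => by
      rw [swap01 hF hx hy hz, swap12 hF hy hx hz]⟩
  · exact ⟨y, x, z, h3, h1, by omega, by omega, by omega, fun F hF => by
      rw [swap01 hF hx hy hz]⟩
  · exact ⟨z, x, y, h1, h3, by omega, by omega, by omega, fun F hF => by
      rw [swap12 hF hx hy hz, swap01 hF hx hz hy]⟩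
  · exact ⟨x, z, y, h2, h3, by omega, by omega, by omega, fun F hF => by
      rw [swap12 hF hx hy hz]⟩
  · exact ⟨x, y, z, h2, h1, by omega, by omega, by omega, fun F hF => rfl⟩
  · exact ⟨x, y, z, h2, h1, by omega, by omega, by omega, fun F hF => rfl⟩

theorem sp3_spr (hg : ∀ m i, 0 ≤ g m i) (hg1 : ∀ m, sg (g m) = 1) {Q s D : ℕ}
    (hQ : 0 < Q) (hD : 0 < D) {rows : List (ℕ × ℕ × ℕ)} {r0 : ℕ × ℕ × ℕ} (h0 : r0.1 = 0)
    (hasc : Asc r0 rows) (hr0 : Good g n0 Q r0) (hrows : ∀ r ∈ rows, Good g n0 Q r)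
    (x y z : ℕ) :
    SprF g n0 (sp3 Q s D r0 rows x y z) (fun F => (s : ℝ) / D * F ![(x : ℝ), y, z])
      ((s : ℝ) / D * (x + y + z)) := by
  obtain ⟨a, b, c, hcb, hba, hs, h1, h2, h3⟩ := sorted3 x y z
  unfold sp3
  rw [h1, h2]
  have h := sprd_spr (s := s) hg hg1 hQ hD (Z := x + y + z) (dl := x + y + z - 3 * c)
    (e := 2 * a + c - (x + y + z)) (by omega) (by omega) rows r0 hasc hr0 hrows
    (by rw [h0]; simp)
  refine h.mono ?_ (by push_cast; ring)
  intro F hF
  rw [h3 F hF]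
  refine le_of_eq ?_
  congr 2
  have e1 : ((x + y + z - 3 * c : ℕ) : ℝ) = a + b - 2 * c := by
    have : x + y + z - 3 * c = a + b - 2 * c := by omega
    rw [this, Nat.cast_sub (by omega)]
    push_cast
    ring
  have e2 : ((2 * a + c - (x + y + z) : ℕ) : ℝ) = a - b := by
    have : 2 * a + c - (x + y + z) = a - b := by omega
    rw [this, Nat.cast_sub (by omega)]
  have e3 : ((x + y + z : ℕ) : ℝ) = a + b + c := by
    rw [← hs]
    push_cast
    ring
  rw [e1, e2, e3]
  unfold vc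
  funext i
  fin_cases i
  · simp
    ring
  · simp
    ring
  · simp
    ring

lemma perm_univ : (Finset.univ : Finset (Equiv.Perm (Fin 3))) =
    {1, Equiv.swap 0 1, Equiv.swap 0 2, Equiv.swap 1 2, finRotate 3, (finRotate 3) ^ 2} := by
  decide

lemma SS3_eq (F : V 3 → ℝ) (p q : V 3) :
    SS F p q = F ![p 0 * q 0, p 1 * q 1, p 2 * q 2] + F ![p 0 * q 1, p 1 * q 2, p 2 * q 0] +
      F ![p 0 * q 2, p 1 * q 0, p 2 * q 1] +
      (F ![p 0 * q 1, p 1 * q 0, p 2 * q 2] + F ![p 0 * q 2, p 1 * q 1, p 2 * q 0] +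
      F ![p 0 * q 0, p 1 * q 2, p 2 * q 1]) := by
  have hv : ∀ π : Equiv.Perm (Fin 3), (fun i => p i * q (π i)) =
      ![p 0 * q (π 0), p 1 * q (π 1), p 2 * q (π 2)] := by
    intro π
    funext i
    fin_cases i <;> rfl
  unfold SS
  rw [perm_univ]
  rw [Finset.sum_insert (by decide), Finset.sum_insert (by decide), Finset.sum_insert (by decide),
    Finset.sum_insert (by decide), Finset.sum_insert (by decide), Finset.sum_singleton]
  simp only [hv]
  have a0 : (1 : Equiv.Perm (Fin 3)) 0 = 0 := by decide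
  have a1 : (1 : Equiv.Perm (Fin 3)) 1 = 1 := by decide
  have a2 : (1 : Equiv.Perm (Fin 3)) 2 = 2 := by decide
  have b0 : (Equiv.swap (0 : Fin 3) 1) 0 = 1 := by decide
  have b1 : (Equiv.swap (0 : Fin 3) 1) 1 = 0 := by decide
  have b2 : (Equiv.swap (0 : Fin 3) 1) 2 = 2 := by decide
  have c0 : (Equiv.swap (0 : Fin 3) 2) 0 = 2 := by decide
  have c1 : (Equiv.swap (0 : Fin 3) 2) 1 = 1 := by decide
  have c2 : (Equiv.swap (0 : Fin 3) 2) 2 = 0 := by decide
  have d0 : (Equiv.swap (1 : Fin 3) 2) 0 = 0 := by decide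
  have d1 : (Equiv.swap (1 : Fin 3) 2) 1 = 2 := by decide
  have d2 : (Equiv.swap (1 : Fin 3) 2) 2 = 1 := by decide
  have e0 : (finRotate 3) 0 = 1 := by decide
  have e1 : (finRotate 3) 1 = 2 := by decide
  have e2 : (finRotate 3) 2 = 0 := by decide
  have f0 : ((finRotate 3) ^ 2) 0 = 2 := by decide
  have f1 : ((finRotate 3) ^ 2) 1 = 0 := by decide
  have f2 : ((finRotate 3) ^ 2) 2 = 1 := by decide
  rw [a0, a1, a2, b0, b1, b2, c0, c1, c2, d0, d1, d2, e0, e1, e2, f0, f1, f2]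
  ring

/-- a vector of naturals -/
noncomputable def vN (a : ℕ × ℕ × ℕ) : V 3 := ![(a.1 : ℝ), a.2.1, a.2.2]

lemma vN_nn (a : ℕ × ℕ × ℕ) : ∀ i, 0 ≤ vN a i :=
  nn3 (Nat.cast_nonneg _) (Nat.cast_nonneg _) (Nat.cast_nonneg _)

theorem sp6_spr (hg : ∀ m i, 0 ≤ g m i) (hg1 : ∀ m, sg (g m) = 1) {Q s D : ℕ}
    (hQ : 0 < Q) (hD : 0 < D) {rows : List (ℕ × ℕ × ℕ)} {r0 : ℕ × ℕ × ℕ} (h0 : r0.1 = 0)
    (hasc : Asc r0 rows) (hr0 : Good g n0 Q r0) (hrows : ∀ r ∈ rows, Good g n0 Q r)
    (a b : ℕ × ℕ × ℕ) :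
    SprF g n0 (sp6 Q s D r0 rows a b) (fun F => (s : ℝ) / D * SS F (vN a) (vN b))
      ((s : ℝ) / D * (2 * (sg (vN a) * sg (vN b)))) := by
  have h : ∀ x y z : ℕ, _ := fun x y z =>
    sp3_spr (s := s) hg hg1 hQ hD h0 hasc hr0 hrows x y z
  unfold sp6
  refine (((((h _ _ _).add (h _ _ _)).add (h _ _ _)).add (h _ _ _)).add (h _ _ _)).add
    (h _ _ _) |>.mono ?_ ?_
  · intro F _
    rw [SS3_eq]
    refine le_of_eq ?_
    simp only [vN, Matrix.cons_val]
    push_cast
    ring
  · unfold vN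
    rw [sg3v, sg3v]
    push_cast
    ring

end Vale.Agent.P154.E
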