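import Vale.Agent.P154N.EProof
import Vale.Agent.P154N.ESpread
import Vale.Agent.P154.GNorm

/-! One level of the density evolution for four children -/

namespace Vale.Agent.P154.E

open Vale.Agent.P154.G Finset
open scoped ENNReal NNReal

lemma SprF.toOk {g : ℕ → V 3} {n0 X : ℕ} {Φ : (V 3 → ℝ) → ℝ} {M : ℝ} (h : SprF g n0 X Φ M) :
    OkP n0 g X Φ M := by
  obtain ⟨r, h1, h2, h3⟩ := h
  exact ⟨r, h1, h3, h2⟩

lemma SS_scale {F : V 3 → ℝ} (hF : SSub F) {M : ℝ} (hM : 0 < M) {a b : T3} {x y : V 3}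
    (hx : ∀ i, 0 ≤ x i) (hy : ∀ i, 0 ≤ y i) (ha : ∀ i, vN a i = M * x i)
    (hb : ∀ i, vN b i = M * y i) :
    1 / (2 * M ^ 2) * SS F (vN a) (vN b) = 1 / (((3 - 1).factorial : ℕ) : ℝ) * SS F x y := by
  have e1 : vN a = fun i => M * x i := funext ha
  have e2 : vN b = fun i => M * y i := funext hb
  have hH : Hom1 F := fun s hs c hc => hF.smul s hs c hc
  rw [e1, e2, SS_smul hH hM.le hM.le hx hy]
  have e3 : (((3 - 1).factorial : ℕ) : ℝ) = 2 := by norm_num [Nat.factorial]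
  rw [e3]
  field_simp

section
variable {g : ℕ → V 3} {n Q : ℕ} {r0 : T3} {rows : List T3}

/-- a quadratic step for a list of vectors which are multiples of given normalised vectors -/
theorem quad_step (hg : ∀ m i, 0 ≤ g m i) (hg1 : ∀ m, sg (g m) = 1) (hgn : g n = vert)
    (hQ : 0 < Q) (h0 : r0.1 = 0) (hasc : Asc r0 rows) (hr0 : Good g (n + 1) Q r0)
    (hrows : ∀ r ∈ rows, Good g (n + 1) Q r) {M : ℕ} (hM : 0 < M) {A : List T3}
    (hlA : A.length = n + 1) (hAm : ∀ a ∈ A, a.1 + a.2.1 + a.2.2 = M) {x : ℕ → V 3}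
    (hx : ∀ k i, 0 ≤ x k i) (hAx : ∀ k, k < n + 1 → ∀ i, vN (A.getD k (0, 0, 0)) i = M * x k i)
    {w : List ℕ} (hw : w.length = n + 1) (hs : w.sum = SW) :
    (unp n (quadF w (tens Q (2 * M ^ 2) r0 rows A)) 0).length = n + 1 ∧
    (unp n (quadF w (tens Q (2 * M ^ 2) r0 rows A)) 0).sum = SW ∧
    ∀ F, SSub F → ∑ k : Fin (n + 1), ∑ l : Fin (n + 1),
      ((w.getD k 0 : ℝ) / SW) * ((w.getD l 0 : ℝ) / SW) *
        (1 / (((3 - 1).factorial : ℕ) : ℝ) * SS F (x k) (x l)) ≤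
      ∑ j : Fin (n + 1), (((unp n (quadF w (tens Q (2 * M ^ 2) r0 rows A)) 0).getD j 0 : ℕ) : ℝ)
        / SW * F (g j) := by
  have hMr : (0 : ℝ) < M := by exact_mod_cast hM
  have hh : ∀ F, SSub F → ∀ m, m < n → 0 ≤ F vert - F (g m) := by
    intro F hF m _
    have := hF.le_vert (hg m)
    rw [hg1, one_mul] at this
    linarith
  have hsgv : ∀ a ∈ A, sg (vN a) = M := by
    intro a ha
    have h1 := hAm a ha
    have e : sg (vN a) = (a.1 : ℝ) + a.2.1 + a.2.2 := sg3v _ _ _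
    rw [e, ← h1]
    push_cast
    ring
  have hHS : HS (n + 1) g Q (2 * M ^ 2) r0 rows
      (fun F a b => 1 / (2 * (M : ℝ) ^ 2) * SS F (vN a) (vN b)) A := by
    intro s a ha b hb
    have h1 := (sp6_spr (s := s) (D := 2 * M ^ 2) hg hg1 hQ (by positivity) h0 hasc hr0 hrows a b).toOk
    rw [hsgv a ha, hsgv b hb] at h1
    convert h1 using 2
    · push_cast
      ring
    · push_cast
      field_simp
  obtain ⟨h1, h2, h3⟩ := step_gen hgn hh hlA hw hs hHS (fun F hF a b => by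
    rw [SS_comm' hF (vN_nn a) (vN_nn b)])
  refine ⟨h1, h2, fun F hF => ?_⟩
  refine le_of_eq_of_le ?_ (h3 F hF)
  refine Finset.sum_congr rfl fun k _ => Finset.sum_congr rfl fun l _ => ?_
  rw [SS_scale hF hMr (hx k) (hx l) (hAx k k.2) (hAx l l.2)]

theorem level4_step (hg : ∀ m i, 0 ≤ g m i) (hg1 : ∀ m, sg (g m) = 1) (hgn : g n = vert)
    (hQ : 0 < Q) (h0 : r0.1 = 0) (hasc : Asc r0 rows) (hr0 : Good g (n + 1) Q r0)
    (hrows : ∀ r ∈ rows, Good g (n + 1) Q r) {Γ M : ℕ} (hΓ : 0 < Γ) (hM : 0 < M)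
    {ga ka : List T3} (hlga : ga.length = n + 1) (hlka : ka.length = n + 1)
    (hgm : ∀ a ∈ ga, a.1 + a.2.1 + a.2.2 = Γ) (hkm : ∀ a ∈ ka, a.1 + a.2.1 + a.2.2 = M)
    {lam : ℝ} (h : 0 ≤ 1 + (((3 : ℕ) : ℝ) - 1) * lam ∧ lam ≤ 1)
    (hga : ∀ k, k < n + 1 → ∀ i, vN (ga.getD k (0, 0, 0)) i = Γ * g k i)
    (hka : ∀ k, k < n + 1 → ∀ i, vN (ka.getD k (0, 0, 0)) i = M * chan lam (g k) i)
    {L : ℕ} {w : List ℕ} (hw : w.length = n + 1) (hs : w.sum = SW)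
    (hB : Bd (fam (PMF.pure 4) (potts lam h) L) (fun k : Fin (n + 1) => g k)
      (fun k => (w.getD k 0 : ℝ) / SW)) :
    (lev4 n (tens Q (2 * M ^ 2) r0 rows ka) (tens Q (2 * Γ ^ 2) r0 rows ga) w).length = n + 1 ∧
    (lev4 n (tens Q (2 * M ^ 2) r0 rows ka) (tens Q (2 * Γ ^ 2) r0 rows ga) w).sum = SW ∧
    Bd (fam (PMF.pure 4) (potts lam h) (L + 1)) (fun k : Fin (n + 1) => g k)
      (fun k => (((lev4 n (tens Q (2 * M ^ 2) r0 rows ka) (tens Q (2 * Γ ^ 2) r0 rows ga)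
        w).getD k 0 : ℕ) : ℝ) / SW) := by
  have hSW : (0 : ℝ) < SW := by unfold SW; positivity
  obtain ⟨a1, a2, a3⟩ := quad_step hg hg1 hgn hQ h0 hasc hr0 hrows hM hlka hkm
    (x := fun k => chan lam (g k)) (fun k => chan_nn2 h (hg k)) hka hw hs
  obtain ⟨b1, b2, b3⟩ := quad_step hg hg1 hgn hQ h0 hasc hr0 hrows hΓ hlga hgm
    (x := g) hg hga a1 a2
  refine ⟨b1, b2, ?_⟩
  exact Bd.level4 (by norm_num) h L (g := fun k : Fin (n + 1) => g k) (fun k => hg k)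
    (fun k => by positivity) hB
    (g2 := fun k : Fin (n + 1) => g k) (fun k => hg k) (fun k => by positivity) a3 b3

theorem iter4_bd (hg : ∀ m i, 0 ≤ g m i) (hg1 : ∀ m, sg (g m) = 1) (hgn : g n = vert)
    (hQ : 0 < Q) (h0 : r0.1 = 0) (hasc : Asc r0 rows) (hr0 : Good g (n + 1) Q r0)
    (hrows : ∀ r ∈ rows, Good g (n + 1) Q r) {Γ M : ℕ} (hΓ : 0 < Γ) (hM : 0 < M)
    {ga ka : List T3} (hlga : ga.length = n + 1) (hlka : ka.length = n + 1)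
    (hgm : ∀ a ∈ ga, a.1 + a.2.1 + a.2.2 = Γ) (hkm : ∀ a ∈ ka, a.1 + a.2.1 + a.2.2 = M)
    {lam : ℝ} (h : 0 ≤ 1 + (((3 : ℕ) : ℝ) - 1) * lam ∧ lam ≤ 1)
    (hga : ∀ k, k < n + 1 → ∀ i, vN (ga.getD k (0, 0, 0)) i = Γ * g k i)
    (hka : ∀ k, k < n + 1 → ∀ i, vN (ka.getD k (0, 0, 0)) i = M * chan lam (g k) i) :
    ∀ (T L : ℕ) (w : List ℕ), w.length = n + 1 → w.sum = SW →
    Bd (fam (PMF.pure 4) (potts lam h) L) (fun k : Fin (n + 1) => g k)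
      (fun k => (w.getD k 0 : ℝ) / SW) →
    (iter4 n (tens Q (2 * M ^ 2) r0 rows ka) (tens Q (2 * Γ ^ 2) r0 rows ga) T w).length = n + 1 ∧
    (iter4 n (tens Q (2 * M ^ 2) r0 rows ka) (tens Q (2 * Γ ^ 2) r0 rows ga) T w).sum = SW ∧
    Bd (fam (PMF.pure 4) (potts lam h) (L + T)) (fun k : Fin (n + 1) => g k)
      (fun k => (((iter4 n (tens Q (2 * M ^ 2) r0 rows ka) (tens Q (2 * Γ ^ 2) r0 rows ga) T
        w).getD k 0 : ℕ) : ℝ) / SW)
  | 0, L, w, hw, hs, hB => ⟨hw, hs, hB⟩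
  | T + 1, L, w, hw, hs, hB => by
    obtain ⟨c1, c2, c3⟩ := level4_step hg hg1 hgn hQ h0 hasc hr0 hrows hΓ hM hlga hlka hgm hkm h
      hga hka hw hs hB
    have h3 := iter4_bd hg hg1 hgn hQ h0 hasc hr0 hrows hΓ hM hlga hlka hgm hkm h hga hka T (L + 1)
      _ c1 c2 c3
    have e : L + (T + 1) = L + 1 + T := by ring
    rw [e]
    exact h3

end

end Vale.Agent.P154.E
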