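import Vale.Agent.P154N.ER1b

/-! a piece of the run on grid 1 -/

namespace Vale.Agent.P154.E

def wb1c : List ℕ := [nat_lit 92263, nat_lit 75948, nat_lit 169457, nat_lit 145556, nat_lit 102524, nat_lit 123806, nat_lit 255868, nat_lit 261811, nat_lit 261215, nat_lit 132803, nat_lit 163663, nat_lit 317156, nat_lit 320743, nat_lit 328621, nat_lit 355829, nat_lit 188419, nat_lit 229179, nat_lit 447830, nat_lit 474475, nat_lit 489279, nat_lit 520395, nat_lit 283996, nat_lit 254935, nat_lit 506931, nat_lit 520334, nat_lit 555768, nat_lit 583005, nat_lit 650107, nat_lit 356209, nat_lit 346388, nat_lit 706644, nat_lit 727149, nat_lit 766734, nat_lit 843972, nat_lit 963823, nat_lit 543209, nat_lit 370743, nat_lit 724262, nat_lit 746404, nat_lit 789918, nat_lit 840243, nat_lit 913732, nat_lit 1018152, nat_lit 1193008, nat_lit 678202, nat_lit 540139, nat_lit 1061082, nat_lit 1101691, nat_lit 1161513, nat_lit 1249435, nat_lit 1384948, nat_lit 1610021, nat_lit 1919829, nat_lit 1158513, nat_lit 647274, nat_lit 1204611, nat_lit 1194536, nat_lit 1257256,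 nat_lit 1317625, nat_lit 1331739, nat_lit 1380662, nat_lit 1456526, nat_lit 1534292, nat_lit 1650414, nat_lit 1732455, nat_lit 1769825, nat_lit 918038, nat_lit 355037, nat_lit 405599, nat_lit 399986, nat_lit 519501, nat_lit 516405, nat_lit 478071, nat_lit 478395, nat_lit 445877, nat_lit 450218, nat_lit 549841, nat_lit 472750, nat_lit 387771, nat_lit 481813, nat_lit 530425, nat_lit 428443, nat_lit 419577, nat_lit 481160, nat_lit 475095, nat_lit 427617, nat_lit 442284, nat_lit 459365, nat_lit 441426, nat_lit 431785, nat_lit 438841, nat_lit 450293, nat_lit 413044, nat_lit 447073, nat_lit 418065, nat_lit 426270, nat_lit 423752, nat_lit 406696, nat_lit 416132, nat_lit 401514, nat_lit 397218, nat_lit 393999, nat_lit 403351, nat_lit 376402, nat_lit 302333, nat_lit 222714, nat_lit 171866, nat_lit 197728]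

theorem run1c : leqO (iterO (nat_lit 107) TK1 TG1 (nat_lit 44) wb1b) wb1c = true := by
  decide +kernel

end Vale.Agent.P154.E
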