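import Vale.Agent.P154N.ER2b

/-! a piece of the run on grid 2 -/

namespace Vale.Agent.P154.E

def wb2c : List ℕ := [nat_lit 348426, nat_lit 356181, nat_lit 697923, nat_lit 664062, nat_lit 367760, nat_lit 416995, nat_lit 826725, nat_lit 818315, nat_lit 817771, nat_lit 764189, nat_lit 416177, nat_lit 514073, nat_lit 993879, nat_lit 1003905, nat_lit 954606, nat_lit 949463, nat_lit 893215, nat_lit 451007, nat_lit 557626, nat_lit 1086713, nat_lit 1068864, nat_lit 1067405, nat_lit 1030242, nat_lit 985396, nat_lit 903048, nat_lit 450182, nat_lit 566769, nat_lit 1120790, nat_lit 1109954, nat_lit 1069621, nat_lit 1040156, nat_lit 974651, nat_lit 922824, nat_lit 834686, nat_lit 401850, nat_lit 627417, nat_lit 1225841, nat_lit 1205488, nat_lit 1163295, nat_lit 1095623, nat_lit 1013890, nat_lit 908416, nat_lit 795033, nat_lit 357515, nat_lit 668851, nat_lit 1289729, nat_lit 1255563, nat_lit 1175443, nat_lit 1078058, nat_lit 963916, nat_lit 821592, nat_lit 674038, nat_lit 281879, nat_lit 660109, nat_lit 1263250, nat_lit 1242279, nat_lit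 1143326, nat_lit 1025883, nat_lit 858907, nat_lit 680864, nat_lit 489097, nat_lit 187795, nat_lit 597043, nat_lit 1151115, nat_lit 1086184, nat_lit 971538, nat_lit 828487, nat_lit 672006, nat_lit 491523, nat_lit 303894, nat_lit 94478, nat_lit 504841, nat_lit 959527, nat_lit 903916, nat_lit 778141, nat_lit 629857, nat_lit 454524, nat_lit 277078, nat_lit 135621, nat_lit 32450, nat_lit 364877, nat_lit 681337, nat_lit 620276, nat_lit 503703, nat_lit 373611, nat_lit 233391, nat_lit 117164, nat_lit 39164, nat_lit 5573, nat_lit 197266, nat_lit 358750, nat_lit 309666, nat_lit 235316, nat_lit 149904, nat_lit 77221, nat_lit 27790, nat_lit 5390, nat_lit 369, nat_lit 55813, nat_lit 97847, nat_lit 77551, nat_lit 52851, nat_lit 26414, nat_lit 9844, nat_lit 2222, nat_lit 232, nat_lit 5, nat_lit 2958, nat_lit 4953, nat_lit 3450, nat_lit 1928, nat_lit 763, nat_lit 210, nat_lit 41, nat_lit 4, nat_lit 241]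

theorem run2c : leqO (iterO (nat_lit 115) TK2 TG2 (nat_lit 34) wb2b) wb2c = true := by
  decide +kernel

end Vale.Agent.P154.E
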