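import Vale.Agent.P154N.EMainA
import Vale.Agent.P154N.ER1c
import Vale.Agent.P154N.ER2c

/-! Density evolution for `d = 4`, `lam = -1/2`: the law at level 231 -/

namespace Vale.Agent.P154.E

open Vale.Agent.P154.G Finset
open scoped ENNReal NNReal

lemma grid1 : GridOk (10 * 1) Gam1 107 (0, 0, 0) rows1 ga1 := okGrid_spec (by decide +kernel)

lemma grid2 : GridOk (14 * 1) Gam2 115 (0, 0, 0) rows2 ga2 := okGrid_spec (by decide +kernel)

lemma okU1 : okU 10 1 TB1 (0, 0, 0) rows1 = true := by decide +kernel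

lemma okU2 : okU 14 1 TB2 (0, 0, 0) rows2 = true := by decide +kernel

lemma hka1 : kaOf Gam1 ga1 = ka1 := by decide +kernel

lemma hka2 : kaOf Gam2 ga2 = ka2 := by decide +kernel

theorem stage1 : wb1c.length = 108 ∧ wb1c.sum = SW ∧
    Bd (fam (PMF.pure 4) (potts (-1 / 2) half_ok) (0 + 44 + 44 + 44))
      (fun k : Fin 108 => gpt Gam1 ga1 k) (fun k => (wb1c.getD k 0 : ℝ) / SW) := by
  have h0 := Bd.zero (PMF.pure 4) half_ok (ι := Fin 108)
    (g := fun k : Fin 108 => gpt Gam1 ga1 k) (Fin.last 107) grid1.last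
  have e : (fun k : Fin 108 => (wa1a.getD k 0 : ℝ) / SW) =
      fun k => if k = Fin.last 107 then 1 else 0 := by
    funext k
    have h1 : ∀ k : Fin 108, wa1a.getD k 0 = if k = Fin.last 107 then SW else 0 := by
      decide +kernel
    rw [h1 k]
    have hSW : (SW : ℝ) ≠ 0 := by unfold SW; norm_num
    split_ifs
    · exact div_self hSW
    · simp
  rw [← e] at h0
  obtain ⟨a1, a2, a3⟩ := run_bdO (T := 44) (L := 0) (w := wa1a) (w' := wb1a) grid1 okU1 hka1
    (by decide +kernel) (by decide +kernel) half_ok (by decide +kernel) (by decide +kernel) h0 run1a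
  obtain ⟨b1, b2, b3⟩ := run_bdO (T := 44) (w' := wb1b) grid1 okU1 hka1
    (by decide +kernel) (by decide +kernel) half_ok a1 a2 a3 run1b
  exact run_bdO (T := 44) (w' := wb1c) grid1 okU1 hka1
    (by decide +kernel) (by decide +kernel) half_ok b1 b2 b3 run1c

lemma trans_run : leqO (unp 115 (linF wb1c (lin3 (14 * 1) Gam1 (0, 0, 0) rows2 ga1)) 0) wa2a =
    true := by
  decide +kernel

theorem stage2 : wb2c.length = 116 ∧ wb2c.sum = SW ∧
    Bd (fam (PMF.pure 4) (potts (-1 / 2) half_ok) (0 + 44 + 44 + 44 + 33 + 32 + 34))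
      (fun k : Fin 116 => gpt Gam2 ga2 k) (fun k => (wb2c.getD k 0 : ℝ) / SW) := by
  obtain ⟨h1, h2, h3⟩ := stage1
  obtain ⟨t1, t2, t3⟩ := transfer (n' := 107) grid2 grid1.Gpos grid1.len grid1.mass h1 h2
  have e : unp 115 (linF wb1c (lin3 (14 * 1) Gam1 (0, 0, 0) rows2 ga1)) 0 = wa2a :=
    leqO_eq _ _ trans_run
  rw [e] at t1 t2 t3
  have hB : Bd (fam (PMF.pure 4) (potts (-1 / 2) half_ok) (0 + 44 + 44 + 44))
      (fun k : Fin 116 => gpt Gam2 ga2 k) (fun k => (wa2a.getD k 0 : ℝ) / SW) := by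
    intro F hF
    exact (h3 F hF).trans (t3 F hF)
  obtain ⟨a1, a2, a3⟩ := run_bdO (T := 33) (w := wa2a) (w' := wb2a) grid2 okU2 hka2
    (by decide +kernel) (by decide +kernel) half_ok t1 t2 hB run2a
  obtain ⟨b1, b2, b3⟩ := run_bdO (T := 32) (w' := wb2b) grid2 okU2 hka2
    (by decide +kernel) (by decide +kernel) half_ok a1 a2 a3 run2b
  exact run_bdO (T := 34) (w' := wb2c) grid2 okU2 hka2
    (by decide +kernel) (by decide +kernel) half_ok b1 b2 b3 run2c

end Vale.Agent.P154.E
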