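import Vale.Agent.P154N.EOpt

/-! The raw computation agrees with the original one -/

namespace Vale.Agent.P154.E

lemma WW_lit : (1208925819614629174706176 : ℕ) = WW := by unfold WW; norm_num

lemma mnO_eq (a b : ℕ) : mnO a b = mn a b := by
  unfold mnO mn
  cases Nat.ble a b <;> rfl

lemma mxO_eq (a b : ℕ) : mxO a b = mx a b := by
  unfold mxO mx
  cases Nat.ble a b <;> rfl

lemma rowO_eq (n o num D e dl : ℕ) : rowO n o num D e dl =
    ((num * (dl - (e * n) % dl)) / (D * dl) + ((num * ((e * n) % dl)) / (D * dl)) * WW) *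
      WW ^ (o + (e * n) / dl) := by
  rw [← WW_lit]
  rfl

lemma rowO_zero (n o D e dl : ℕ) : rowO n o 0 D e dl = 0 := by
  rw [rowO_eq]
  simp

lemma rowP_eq_pos {n o D e dl u s A : ℕ} (hn : 0 < n) (hu : 0 < u) :
    rowP n o (s * (u * A)) (D * u) e dl = rowO n o (s * A) D e dl := by
  have h : Nat.beq n 0 = false := by
    cases n with
    | zero => exact absurd hn (lt_irrefl _)
    | succ k => rfl
  unfold rowP
  rw [h, rowO_eq, cond_false]
  have e1 : ∀ m, s * (u * A) * m / (D * u * dl) = s * A * m / (D * dl) := by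
    intro m
    rw [show s * (u * A) * m = u * (s * A * m) by ring, show D * u * dl = u * (D * dl) by ring,
      Nat.mul_div_mul_left _ _ hu]
  rw [e1, e1]

lemma rowP_eq_zero {o D e dl dl' u s A : ℕ} (hu : 0 < u) (hdl : 0 < dl') :
    rowP 0 o (s * (u * A)) (D * u) e dl = rowO 0 o (s * A) D e dl' := by
  rw [rowO_eq]
  show (s * (u * A) / (D * u)) * WW ^ o = _
  rw [show s * (u * A) = u * (s * A) by ring, show D * u = u * D by ring,
    Nat.mul_div_mul_left _ _ hu]
  simp only [Nat.mul_zero, Nat.zero_mod, Nat.zero_div, Nat.sub_zero, Nat.zero_mul, Nat.add_zero]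
  rw [Nat.mul_div_mul_right _ _ hdl]

lemma rowP_num0 (n o den e dl : ℕ) : rowP n o 0 den e dl = 0 := by
  unfold rowP
  cases Nat.beq n 0 <;> simp

/-- the digits of `T` describe the rows -/
def okTB (u : ℕ) : ℕ → ℕ → List (ℕ × ℕ × ℕ) → Bool
  | _, _, [] => true
  | j, T, r :: l => Nat.beq r.1 (j * u) && (Nat.beq (T % 256) r.2.1 &&
      (Nat.beq (T / 256 % 256) r.2.2 && (Nat.ble (cond (Nat.beq j 0) 0 1) r.2.1 &&
        okTB u (j + 1) (T / 65536) l)))

lemma okTB_cons {u j T : ℕ} {r : ℕ × ℕ × ℕ} {l : List (ℕ × ℕ × ℕ)}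
    (h : okTB u j T (r :: l) = true) : r.1 = j * u ∧ T % 256 = r.2.1 ∧ T / 256 % 256 = r.2.2 ∧
      (0 < j → 0 < r.2.1) ∧ okTB u (j + 1) (T / 65536) l = true := by
  simp only [okTB, Bool.and_eq_true] at h
  obtain ⟨h1, h2, h3, h4, h5⟩ := h
  refine ⟨Nat.eq_of_beq_eq_true h1, Nat.eq_of_beq_eq_true h2, Nat.eq_of_beq_eq_true h3, ?_, h5⟩
  intro hj
  have e : Nat.beq j 0 = false := by
    cases j with
    | zero => exact absurd hj (lt_irrefl _)
    | succ k => rfl
  rw [e, cond_false] at h4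
  exact Nat.le_of_ble_eq_true h4

lemma spO_eq (J TB s D Z dl e B : ℕ) : spO J TB s D Z dl e B =
    rowO (TB / 65536 ^ (B / Z) % 4294967296 % 256) (TB / 65536 ^ (B / Z) % 4294967296 / 256 % 256)
      (s * (Z - (B - B / Z * Z))) D e dl +
    rowO (TB / 65536 ^ (B / Z) % 4294967296 / 65536 % 256)
      (TB / 65536 ^ (B / Z) % 4294967296 / 16777216) (s * (B - B / Z * Z)) D e dl := rfl

lemma dig1 (T : ℕ) : T % 4294967296 % 256 = T % 256 := by omega
lemma dig2 (T : ℕ) : T % 4294967296 / 256 % 256 = T / 256 % 256 := by omega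
lemma dig3 (T : ℕ) : T % 4294967296 / 65536 % 256 = T / 65536 % 256 := by omega
lemma dig4 (T : ℕ) : T % 4294967296 / 16777216 = T / 65536 / 256 % 256 := by omega

lemma sprd_cons' (Q s D Z dl e : ℕ) (r1 : ℕ × ℕ × ℕ) (rows : List (ℕ × ℕ × ℕ))
    (r0 : ℕ × ℕ × ℕ) : sprd Q s D Z dl e (r1 :: rows) r0 =
    cond (Nat.ble (Q * dl) (r1.1 * Z))
      (rowP r0.2.1 r0.2.2 (s * (r1.1 * Z - Q * dl)) (D * (r1.1 - r0.1)) e dl +
       rowP r1.2.1 r1.2.2 (s * (Q * dl - r0.1 * Z)) (D * (r1.1 - r0.1)) e dl)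
      (sprd Q s D Z dl e rows r1) := rfl

/-- nonzero direction -/
theorem sprd_spO {J u TB s D Z dl e : ℕ} (hu : 0 < u) (hdl : 0 < dl) (hZ : dl ≤ Z) :
    ∀ (rows : List (ℕ × ℕ × ℕ)) (r0 : ℕ × ℕ × ℕ) (j : ℕ),
      okTB u j (TB / 65536 ^ j) (r0 :: rows) = true → (j = 0 → r0.2.1 = 0) →
      j * Z ≤ J * dl → (0 < j → j * Z < J * dl) → J * dl ≤ (j + rows.length) * Z →
      rows ≠ [] →
      sprd (J * u) s D Z dl e rows r0 = spO J TB s D Z dl e (J * dl)
  | [], _, _, _, _, _, _, _, hne => absurd rfl hne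
  | r1 :: rows, r0, j, hok, h0, hj, hj', hlen, _ => by
    have hZ0 : 0 < Z := lt_of_lt_of_le hdl hZ
    obtain ⟨a1, a2, a3, a4, a5⟩ := okTB_cons hok
    have hT : TB / 65536 ^ j / 65536 = TB / 65536 ^ (j + 1) := by
      rw [Nat.div_div_eq_div_mul, pow_succ]
    rw [hT] at a5
    obtain ⟨b1, b2, b3, b4, b5⟩ := okTB_cons a5
    have hn1 : 0 < r1.2.1 := b4 (Nat.succ_pos j)
    rw [sprd_cons']
    have eQ : J * u * dl = u * (J * dl) := by ring
    have e1 : r1.1 * Z = u * ((j + 1) * Z) := by rw [b1]; ring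
    have e0 : r0.1 * Z = u * (j * Z) := by rw [a1]; ring
    have ed : r1.1 - r0.1 = u := by
      rw [b1, a1, Nat.succ_mul]
      omega
    rw [eQ, e1, e0, ed, ← Nat.mul_sub, ← Nat.mul_sub]
    by_cases hc : J * dl ≤ (j + 1) * Z
    · rw [Nat.ble_eq_true_of_le (Nat.mul_le_mul_left u hc), cond_true]
      have hrow0 : ∀ A, rowP r0.2.1 r0.2.2 (s * (u * A)) (D * u) e dl =
          rowO r0.2.1 r0.2.2 (s * A) D e dl := by
        intro A
        rcases Nat.eq_zero_or_pos r0.2.1 with h | h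
        · rw [h]
          exact rowP_eq_zero hu hdl
        · exact rowP_eq_pos h hu
      rw [hrow0, rowP_eq_pos hn1 hu, spO_eq]
      rcases Nat.lt_or_ge (J * dl) ((j + 1) * Z) with hlt | hge
      · have hq : J * dl / Z = j := by
          apply Nat.div_eq_of_lt_le
          · exact hj
          · exact hlt
        rw [hq, dig1, dig2, dig3, dig4, a2, a3, hT, b2, b3]
        have e3 : Z - (J * dl - j * Z) = (j + 1) * Z - J * dl := by
          rw [Nat.succ_mul]
          omega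
        rw [e3]
      · have heq : J * dl = (j + 1) * Z := le_antisymm hc hge
        have hq : J * dl / Z = j + 1 := by
          rw [heq]
          exact Nat.mul_div_cancel _ hZ0
        rw [hq, dig1, dig2, b2, b3, heq]
        simp only [Nat.sub_self, Nat.mul_zero, rowO_zero, Nat.sub_zero, Nat.add_zero, Nat.zero_add]
        have e4 : (j + 1) * Z - j * Z = Z := by
          rw [Nat.succ_mul]
          omega
        rw [e4]
    · have hc' : (j + 1) * Z < J * dl := not_le.1 hc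
      have hb : Nat.ble (u * (J * dl)) (u * ((j + 1) * Z)) = false := by
        rw [← Bool.not_eq_true]
        intro h
        exact hc (Nat.le_of_mul_le_mul_left (Nat.le_of_ble_eq_true h) hu)
      rw [hb, cond_false]
      have hne : rows ≠ [] := by
        intro h
        rw [h] at hlen
        exact hc (by simpa using hlen)
      refine sprd_spO hu hdl hZ rows r1 (j + 1) a5 (fun h => absurd h (Nat.succ_ne_zero j))
        hc'.le (fun _ => hc') ?_ hne
      rw [List.length_cons] at hlen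
      rwa [show j + 1 + rows.length = j + (rows.length + 1) by omega]

/-- the grid has the uniform radii `j u / (J u)`, and `TB` encodes it -/
def okU (J u TB : ℕ) (r0 : ℕ × ℕ × ℕ) (rows : List (ℕ × ℕ × ℕ)) : Bool :=
  Nat.ble 1 u && (Nat.ble 1 J && (Nat.beq rows.length J && (Nat.beq r0.2.1 0 &&
    okTB u 0 TB (r0 :: rows))))

theorem sp3O_eq {J u TB : ℕ} {r0 : ℕ × ℕ × ℕ} {rows : List (ℕ × ℕ × ℕ)}
    (h : okU J u TB r0 rows = true) (s D x y z : ℕ) :
    sp3O J TB s D x y z = sp3 (J * u) s D r0 rows x y z := by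
  simp only [okU, Bool.and_eq_true] at h
  obtain ⟨h1, h2, h3, h4, h5⟩ := h
  have hu : 0 < u := Nat.le_of_ble_eq_true h1
  have hJ : 0 < J := Nat.le_of_ble_eq_true h2
  have hl : rows.length = J := Nat.eq_of_beq_eq_true h3
  have h0 : r0.2.1 = 0 := Nat.eq_of_beq_eq_true h4
  have hne : rows ≠ [] := by
    intro h
    rw [h] at hl
    simp at hl
    omega
  have e : sp3O J TB s D x y z = spO J TB s D (x + y + z)
      (mxO 1 (x + y + z - 3 * mnO x (mnO y z)))
      (2 * mxO x (mxO y z) + mnO x (mnO y z) - (x + y + z))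
      (J * (x + y + z - 3 * mnO x (mnO y z))) := rfl
  rw [e]
  unfold sp3
  simp only [mnO_eq, mxO_eq]
  obtain ⟨dl, hdl⟩ : ∃ dl, dl = x + y + z - 3 * mn x (mn y z) := ⟨_, rfl⟩
  obtain ⟨ee, hee⟩ : ∃ ee, ee = 2 * mx x (mx y z) + mn x (mn y z) - (x + y + z) := ⟨_, rfl⟩
  obtain ⟨Z, hZ⟩ : ∃ Z, Z = x + y + z := ⟨_, rfl⟩
  have hdZ : dl ≤ Z := by omega
  rw [← hdl, ← hee, ← hZ]
  rcases Nat.eq_zero_or_pos dl with hd | hd
  · -- the centre
    have hm : mx 1 dl = 1 := by rw [hd]; rfl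
    rw [hm, hd, spO_eq]
    obtain ⟨r1, rest, hr⟩ : ∃ r1 rest, rows = r1 :: rest := by
      cases rows with
      | nil => exact absurd rfl hne
      | cons a l => exact ⟨a, l, rfl⟩
    obtain ⟨a1, a2, a3, a4, a5⟩ := okTB_cons h5
    rw [hr] at a5
    obtain ⟨b1, b2, b3, b4, b5⟩ := okTB_cons a5
    rw [hr, sprd_cons']
    have hb : Nat.ble (J * u * 0) (r1.1 * Z) = true := Nat.ble_eq_true_of_le (by simp)
    rw [hb, cond_true]
    have e0 : r0.1 * Z = 0 := by rw [a1]; simp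
    have ed : r1.1 - r0.1 = u := by rw [b1, a1]; simp
    have e1 : r1.1 * Z = u * Z := by rw [b1]; simp
    rw [e0, ed, e1]
    simp only [Nat.mul_zero, Nat.zero_div, Nat.zero_mul, Nat.sub_zero, Nat.sub_self, pow_zero,
      Nat.div_one, rowO_zero, rowP_num0, Nat.add_zero]
    rw [dig1, dig2, a2, a3, h0]
    exact (rowP_eq_zero hu Nat.one_pos).symm
  · have hm : mx 1 dl = dl := by
      unfold mx
      rw [Nat.ble_eq_true_of_le (show 1 ≤ dl from hd), cond_true]
    rw [hm]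
    refine (sprd_spO (J := J) (TB := TB) hu hd hdZ rows r0 0 ?_ (fun _ => h0) (by simp)
      (fun h => absurd h (lt_irrefl _)) ?_ hne).symm
    · simpa using h5
    · rw [Nat.zero_add, hl]
      exact Nat.mul_le_mul_left J hdZ

theorem sp6O_eq {J u TB : ℕ} {r0 : ℕ × ℕ × ℕ} {rows : List (ℕ × ℕ × ℕ)}
    (h : okU J u TB r0 rows = true) (s D : ℕ) (a b : ℕ × ℕ × ℕ) :
    sp6O J TB s D a b = sp6 (J * u) s D r0 rows a b := by
  obtain ⟨a1, a2, a3⟩ := a
  obtain ⟨b1, b2, b3⟩ := b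
  unfold sp6
  simp only [← sp3O_eq h]
  rfl

lemma tens_row_eq {J u TB : ℕ} {r0 : ℕ × ℕ × ℕ} {rows : List (ℕ × ℕ × ℕ)}
    (h : okU J u TB r0 rows = true) (D : ℕ) (a : ℕ × ℕ × ℕ) (A : List (ℕ × ℕ × ℕ)) :
    (@List.rec (ℕ × ℕ × ℕ) (fun _ => List ℕ) []
      (fun b _ ih2 => sp6O J TB (nat_lit 33554432) D a b :: ih2) A) =
    (@List.rec (ℕ × ℕ × ℕ) (fun _ => List ℕ) []
      (fun b _ ih2 => sp6 (J * u) (2 * ST) D r0 rows a b :: ih2) A) := by
  have hS : (33554432 : ℕ) = 2 * ST := by unfold ST; norm_num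
  induction A with
  | nil => rfl
  | cons b A ih =>
    show sp6O J TB 33554432 D a b :: _ = sp6 (J * u) (2 * ST) D r0 rows a b :: _
    rw [sp6O_eq h, hS, ih]

theorem tensO_eq {J u TB : ℕ} {r0 : ℕ × ℕ × ℕ} {rows : List (ℕ × ℕ × ℕ)}
    (h : okU J u TB r0 rows = true) (D : ℕ) : ∀ A : List (ℕ × ℕ × ℕ),
    tensO J TB D A = tens (J * u) D r0 rows A
  | [] => rfl
  | a :: A => by
    have hS : (16777216 : ℕ) = ST := by unfold ST; norm_num
    have e1 : tensO J TB D (a :: A) = (sp6O J TB 16777216 D a a ::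
      (@List.rec (ℕ × ℕ × ℕ) (fun _ => List ℕ) []
        (fun b _ ih2 => sp6O J TB (nat_lit 33554432) D a b :: ih2) A)) :: tensO J TB D A := rfl
    have e2 : tens (J * u) D r0 rows (a :: A) = (sp6 (J * u) ST D r0 rows a a ::
      (@List.rec (ℕ × ℕ × ℕ) (fun _ => List ℕ) []
        (fun b _ ih2 => sp6 (J * u) (2 * ST) D r0 rows a b :: ih2) A)) ::
          tens (J * u) D r0 rows A := rfl
    rw [e1, e2, tensO_eq h D A, tens_row_eq h, sp6O_eq h, hS]

end Vale.Agent.P154.E
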