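import Vale.Agent.P154N.EGrid
import Vale.Agent.P154N.EHalf
import Vale.Agent.P154N.EOptEq

/-! Runs of the density evolution on a checked grid, `d = 4`, `lam = -1/2` -/

namespace Vale.Agent.P154.E

open Vale.Agent.P154.G Finset
open scoped ENNReal NNReal

lemma gpt_eq {Γ n : ℕ} (hΓ : 0 < Γ) {ga : List T3} (hl : ga.length = n + 1) :
    ∀ k, k < n + 1 → ∀ i, vN (ga.getD k (0, 0, 0)) i = Γ * gpt Γ ga k i := by
  intro k hk i
  have hΓr : (0 : ℝ) < Γ := by exact_mod_cast hΓ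
  have hkl : k < ga.length := by omega
  unfold gpt
  rw [List.getD_eq_getElem _ _ hkl, List.getD_eq_getElem _ _ hkl]
  field_simp

/-- iteration on a checked grid, `lam = -1/2` -/
theorem run_bd {Q Γ n : ℕ} {r0 : T3} {rows ga : List T3} (hG : GridOk Q Γ n r0 rows ga)
    (h : 0 ≤ 1 + (((3 : ℕ) : ℝ) - 1) * (-1 / 2 : ℝ) ∧ (-1 / 2 : ℝ) ≤ 1) {T L : ℕ}
    {w w' : List ℕ} (hw : w.length = n + 1) (hs : w.sum = SW)
    (hB : Bd (fam (PMF.pure 4) (potts (-1 / 2) h) L) (fun k : Fin (n + 1) => gpt Γ ga k)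
      (fun k => (w.getD k 0 : ℝ) / SW))
    (e : iter4 n (tens Q (2 * (2 * Γ) ^ 2) r0 rows (kaOf Γ ga))
      (tens Q (2 * Γ ^ 2) r0 rows ga) T w = w') :
    w'.length = n + 1 ∧ w'.sum = SW ∧
    Bd (fam (PMF.pure 4) (potts (-1 / 2) h) (L + T)) (fun k : Fin (n + 1) => gpt Γ ga k)
      (fun k => (w'.getD k 0 : ℝ) / SW) := by
  have hga := gpt_eq (n := n) hG.Gpos hG.len
  have hka := kaOf_eq hG.Gpos hG.len hG.mass hG.sg1 hga
  have key := iter4_bd (Γ := Γ) (M := 2 * Γ) hG.nn hG.sg1 hG.last hG.Qpos hG.r00 hG.asc hG.good0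
    hG.good hG.Gpos (by have := hG.Gpos; omega) hG.len (by rw [kaOf_length]; exact hG.len)
    hG.mass (kaOf_mass hG.mass) h hga hka T L w hw hs hB
  rw [e] at key
  exact key

/-- the same with the raw operations -/
theorem run_bdO {J u TB Γ n : ℕ} {r0 : T3} {rows ga ka : List T3}
    (hG : GridOk (J * u) Γ n r0 rows ga) (hU : okU J u TB r0 rows = true) (hk : kaOf Γ ga = ka)
    {DK DG : ℕ} (hDK : DK = 2 * (2 * Γ) ^ 2) (hDG : DG = 2 * Γ ^ 2)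
    (h : 0 ≤ 1 + (((3 : ℕ) : ℝ) - 1) * (-1 / 2 : ℝ) ∧ (-1 / 2 : ℝ) ≤ 1) {T L : ℕ}
    {w w' : List ℕ} (hw : w.length = n + 1) (hs : w.sum = SW)
    (hB : Bd (fam (PMF.pure 4) (potts (-1 / 2) h) L) (fun k : Fin (n + 1) => gpt Γ ga k)
      (fun k => (w.getD k 0 : ℝ) / SW))
    (hrun : leqO (iterO n (tensO J TB DK ka) (tensO J TB DG ga) T w) w' = true) :
    w'.length = n + 1 ∧ w'.sum = SW ∧
    Bd (fam (PMF.pure 4) (potts (-1 / 2) h) (L + T)) (fun k : Fin (n + 1) => gpt Γ ga k)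
      (fun k => (w'.getD k 0 : ℝ) / SW) := by
  have e := leqO_eq _ _ hrun
  rw [iterO_eq, tensO_eq hU, tensO_eq hU, hDK, hDG, ← hk] at e
  exact run_bd hG h hw hs hB e

lemma half_ok : 0 ≤ 1 + (((3 : ℕ) : ℝ) - 1) * (-1 / 2 : ℝ) ∧ (-1 / 2 : ℝ) ≤ 1 := by
  constructor <;> norm_num

end Vale.Agent.P154.E
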