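import Vale.Agent.P154N.EDefs

/-! The same computation with raw operations on natural numbers (no instances to unfold) and with
uniform radii `j / J`; `TB` encodes the rows: bits `16 j .. 16 j + 7`
are the number of intervals of row `j`, bits `16 j + 8 .. 16 j + 15` its first index -/

namespace Vale.Agent.P154.E

/-- one row: mass `num / D` on the row with `n` intervals and offset `o` -/
def rowO (n o num D e dl : ℕ) : ℕ :=
  (fun q => (fun rem => (fun dd =>
    Nat.mul (Nat.add (Nat.div (Nat.mul num (Nat.sub dl rem)) dd)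
      (Nat.mul (Nat.div (Nat.mul num rem) dd) (nat_lit 1208925819614629174706176)))
      (Nat.pow (nat_lit 1208925819614629174706176) (Nat.add o (Nat.div q dl))))
    (Nat.mul D dl)) (Nat.mod q dl)) (Nat.mul e n)

/-- the decomposition -/
def spO (J TB s D Z dl e B : ℕ) : ℕ :=
  (fun j => (fun up => (fun E => Nat.add
    (rowO (Nat.mod E (nat_lit 256)) (Nat.mod (Nat.div E (nat_lit 256)) (nat_lit 256))
      (Nat.mul s (Nat.sub Z up)) D e dl)
    (rowO (Nat.mod (Nat.div E (nat_lit 65536)) (nat_lit 256)) (Nat.div E (nat_lit 16777216))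
      (Nat.mul s up) D e dl))
    (Nat.mod (Nat.div TB (Nat.pow (nat_lit 65536) j)) (nat_lit 4294967296)))
    (Nat.sub B (Nat.mul j Z))) (Nat.div B Z)

def mnO (a b : ℕ) : ℕ := @Bool.rec (fun _ => ℕ) b a (Nat.ble a b)
def mxO (a b : ℕ) : ℕ := @Bool.rec (fun _ => ℕ) a b (Nat.ble a b)

/-- arbitrary vector -/
def sp3O (J TB s D x y z : ℕ) : ℕ :=
  (fun Z => (fun lo => (fun dl => spO J TB s D Z (mxO (nat_lit 1) dl)
      (Nat.sub (Nat.add (Nat.mul (nat_lit 2) (mxO x (mxO y z))) lo) Z) (Nat.mul J dl))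
    (Nat.sub Z (Nat.mul (nat_lit 3) lo))) (mnO x (mnO y z))) (Nat.add (Nat.add x y) z)

def sp6O' (J TB s D a1 a2 a3 b1 b2 b3 : ℕ) : ℕ :=
  (fun m11 m12 m13 m21 m22 m23 m31 m32 m33 =>
  Nat.add (Nat.add (Nat.add (Nat.add (Nat.add (sp3O J TB s D m11 m22 m33)
  (sp3O J TB s D m11 m23 m32))
  (sp3O J TB s D m12 m21 m33))
  (sp3O J TB s D m12 m23 m31))
  (sp3O J TB s D m13 m21 m32))
  (sp3O J TB s D m13 m22 m31)) (Nat.mul a1 b1) (Nat.mul a1 b2) (Nat.mul a1 b3)
  (Nat.mul a2 b1) (Nat.mul a2 b2) (Nat.mul a2 b3) (Nat.mul a3 b1) (Nat.mul a3 b2) (Nat.mul a3 b3)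

noncomputable def sp6O (J TB s D : ℕ) (a b : ℕ × ℕ × ℕ) : ℕ :=
  @Prod.rec ℕ (ℕ × ℕ) (fun _ => ℕ) (fun a1 a' => @Prod.rec ℕ ℕ (fun _ => ℕ) (fun a2 a3 =>
    @Prod.rec ℕ (ℕ × ℕ) (fun _ => ℕ) (fun b1 b' => @Prod.rec ℕ ℕ (fun _ => ℕ) (fun b2 b3 =>
      sp6O' J TB s D a1 a2 a3 b1 b2 b3) b') b) a') a

noncomputable def tensO (J TB D : ℕ) : List (ℕ × ℕ × ℕ) → List (List ℕ) := fun A =>
  @List.rec (ℕ × ℕ × ℕ) (fun _ => List (List ℕ)) []
    (fun a A' ih => (sp6O J TB (nat_lit 16777216) D a a ::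
      @List.rec (ℕ × ℕ × ℕ) (fun _ => List ℕ) []
        (fun b _ ih2 => sp6O J TB (nat_lit 33554432) D a b :: ih2) A') :: ih) A

/-- raw linear combination -/
noncomputable def linO : List ℕ → List ℕ → ℕ := fun l =>
  @List.rec ℕ (fun _ => List ℕ → ℕ) (fun _ => nat_lit 0)
    (fun a _ ih m => @List.rec ℕ (fun _ => ℕ) (nat_lit 0)
      (fun b m' _ => Nat.add (Nat.mul a b) (ih m')) m) l

/-- raw quadratic form -/
noncomputable def quadO : List ℕ → List (List ℕ) → ℕ := fun w =>
  @List.rec ℕ (fun _ => List (List ℕ) → ℕ) (fun _ => nat_lit 0)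
    (fun a w' ih P => @List.rec (List ℕ) (fun _ => ℕ) (nat_lit 0)
      (fun r P' _ => Nat.add (Nat.mul a (linO (a :: w') r)) (ih P')) P) w

lemma linO_eq : linO = linF := rfl
lemma quadO_eq : quadO = quadF := rfl

/-- raw unpacking -/
noncomputable def unpO : ℕ → ℕ → ℕ → List ℕ := fun n =>
  @Nat.rec (fun _ => ℕ → ℕ → List ℕ) (fun _ s => [Nat.sub (nat_lit 67108864) s])
    (fun _ ih X s => (fun q => q :: ih
      (Nat.div X (nat_lit 1208925819614629174706176)) (Nat.add s q))
      (Nat.div (Nat.mod X (nat_lit 1208925819614629174706176)) (nat_lit 1125899906842624))) n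

lemma unpO_eq (n : ℕ) : ∀ X s : ℕ, unpO n X s = unp n X s := by
  have hW : (1208925819614629174706176 : ℕ) = WW := by unfold WW; norm_num
  have hS : (67108864 : ℕ) = SW := by unfold SW; norm_num
  have hT : (1125899906842624 : ℕ) = SW * ST := by unfold SW ST; norm_num
  induction n with
  | zero =>
    intro X s
    show [67108864 - s] = [SW - s]
    rw [hS]
  | succ k ih =>
    intro X s
    show ((X % 1208925819614629174706176) / 1125899906842624) ::
      unpO k (X / 1208925819614629174706176)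
        (s + (X % 1208925819614629174706176) / 1125899906842624) =
      ((X % WW) / (SW * ST)) :: unp k (X / WW) (s + (X % WW) / (SW * ST))
    rw [hW, hT, ih]

/-- one level, four children -/
noncomputable def levO (n : ℕ) (PK PG : List (List ℕ)) (w : List ℕ) : List ℕ :=
  unpO n (quadO (unpO n (quadO w PK) (nat_lit 0)) PG) (nat_lit 0)

lemma levO_eq (n : ℕ) (PK PG : List (List ℕ)) (w : List ℕ) :
    levO n PK PG w = lev4 n PK PG w := by
  unfold levO lev4
  rw [unpO_eq, unpO_eq, quadO_eq]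

noncomputable def iterO (n : ℕ) (PK PG : List (List ℕ)) : ℕ → List ℕ → List ℕ := fun L =>
  @Nat.rec (fun _ => List ℕ → List ℕ) (fun w => w) (fun _ ih w => ih (levO n PK PG w)) L

lemma iterO_eq (n : ℕ) (PK PG : List (List ℕ)) (L : ℕ) : ∀ w : List ℕ,
    iterO n PK PG L w = iter4 n PK PG L w := by
  induction L with
  | zero => intro w; rfl
  | succ k ih =>
    intro w
    show iterO n PK PG k (levO n PK PG w) = iter4 n PK PG k (lev4 n PK PG w)
    rw [levO_eq, ih]

/-- raw equality test -/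
noncomputable def leqO : List ℕ → List ℕ → Bool := fun l =>
  @List.rec ℕ (fun _ => List ℕ → Bool) (fun m => @List.rec ℕ (fun _ => Bool) true (fun _ _ _ => false) m)
    (fun a _ ih m => @List.rec ℕ (fun _ => Bool) false
      (fun b m' _ => @Bool.rec (fun _ => Bool) false (ih m') (Nat.beq a b)) m) l

lemma leqO_eq : ∀ l m : List ℕ, leqO l m = true → l = m
  | [], [], _ => rfl
  | [], b :: m, h => absurd h (by intro h; exact Bool.noConfusion h)
  | a :: l, [], h => absurd h (by intro h; exact Bool.noConfusion h)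
  | a :: l, b :: m, h => by
    have e : leqO (a :: l) (b :: m) = @Bool.rec (fun _ => Bool) false (leqO l m) (Nat.beq a b) :=
      rfl
    rw [e] at h
    cases hab : Nat.beq a b with
    | false => rw [hab] at h; exact absurd h (by simp)
    | true =>
      rw [hab] at h
      rw [Nat.eq_of_beq_eq_true hab, leqO_eq l m h]

end Vale.Agent.P154.E
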