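import Vale.Agent.P154N.ER1a

/-! a piece of the run on grid 1 -/

namespace Vale.Agent.P154.E

def wb1b : List ℕ := [nat_lit 20735, nat_lit 15871, nat_lit 29679, nat_lit 34535, nat_lit 21021, nat_lit 26505, nat_lit 52813, nat_lit 55837, nat_lit 54025, nat_lit 26200, nat_lit 34871, nat_lit 67576, nat_lit 69489, nat_lit 71629, nat_lit 78632, nat_lit 43802, nat_lit 48898, nat_lit 93032, nat_lit 105399, nat_lit 105452, nat_lit 115261, nat_lit 64500, nat_lit 55543, nat_lit 116059, nat_lit 117180, nat_lit 129190, nat_lit 137051, nat_lit 157283, nat_lit 89215, nat_lit 81137, nat_lit 172076, nat_lit 174253, nat_lit 192430, nat_lit 218940, nat_lit 263459, nat_lit 160370, nat_lit 87752, nat_lit 169898, nat_lit 181029, nat_lit 192013, nat_lit 213955, nat_lit 247225, nat_lit 292995, nat_lit 380347, nat_lit 250376, nat_lit 140123, nat_lit 266371, nat_lit 285010, nat_lit 308668, nat_lit 344121, nat_lit 403829, nat_lit 515092, nat_lit 759866, nat_lit 560868, nat_lit 208320, nat_lit 406593, nat_lit 399216, nat_lit 431774, nat_lit 456242, nat_lit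 480738, nat_lit 525503, nat_lit 591916, nat_lit 681916, nat_lit 836577, nat_lit 1076413, nat_lit 1622322, nat_lit 1165701, nat_lit 521796, nat_lit 792996, nat_lit 798142, nat_lit 887520, nat_lit 851744, nat_lit 800621, nat_lit 832934, nat_lit 821639, nat_lit 789631, nat_lit 841804, nat_lit 818918, nat_lit 768592, nat_lit 832877, nat_lit 839630, nat_lit 782166, nat_lit 816113, nat_lit 835207, nat_lit 835738, nat_lit 827644, nat_lit 848970, nat_lit 868146, nat_lit 861962, nat_lit 888139, nat_lit 918983, nat_lit 937670, nat_lit 946738, nat_lit 999900, nat_lit 1024605, nat_lit 1075860, nat_lit 1102915, nat_lit 1199014, nat_lit 1261894, nat_lit 1354418, nat_lit 1473431, nat_lit 1654924, nat_lit 1810478, nat_lit 2019537, nat_lit 2113440, nat_lit 1985831, nat_lit 2208067, nat_lit 6475513]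

theorem run1b : leqO (iterO (nat_lit 107) TK1 TG1 (nat_lit 44) wb1a) wb1b = true := by
  decide +kernel

end Vale.Agent.P154.E
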