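import Vale.Agent.P154N.ER2a

/-! a piece of the run on grid 2 -/

namespace Vale.Agent.P154.E

def wb2b : List ℕ := [nat_lit 268682, nat_lit 276641, nat_lit 532289, nat_lit 516177, nat_lit 286636, nat_lit 321809, nat_lit 643601, nat_lit 636219, nat_lit 643546, nat_lit 595984, nat_lit 336359, nat_lit 404197, nat_lit 781288, nat_lit 794598, nat_lit 756713, nat_lit 770631, nat_lit 725016, nat_lit 373964, nat_lit 445799, nat_lit 871035, nat_lit 860073, nat_lit 870755, nat_lit 848365, nat_lit 829710, nat_lit 778411, nat_lit 393494, nat_lit 464659, nat_lit 922953, nat_lit 920980, nat_lit 894314, nat_lit 887413, nat_lit 847851, nat_lit 824705, nat_lit 774656, nat_lit 383906, nat_lit 532867, nat_lit 1047283, nat_lit 1038751, nat_lit 1020319, nat_lit 983797, nat_lit 936678, nat_lit 875528, nat_lit 806873, nat_lit 378699, nat_lit 593343, nat_lit 1152208, nat_lit 1133995, nat_lit 1087280, nat_lit 1030695, nat_lit 963286, nat_lit 869878, nat_lit 768777, nat_lit 342726, nat_lit 619710, nat_lit 1196915, nat_lit 1192818, nat_lit 1133934, nat_lit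 1059270, nat_lit 943400, nat_lit 811651, nat_lit 651073, nat_lit 274773, nat_lit 609028, nat_lit 1186206, nat_lit 1143156, nat_lit 1063304, nat_lit 960060, nat_lit 840452, nat_lit 682706, nat_lit 492952, nat_lit 178227, nat_lit 570202, nat_lit 1098884, nat_lit 1061044, nat_lit 960855, nat_lit 836567, nat_lit 673594, nat_lit 479413, nat_lit 288295, nat_lit 85379, nat_lit 479594, nat_lit 911575, nat_lit 857534, nat_lit 745228, nat_lit 608896, nat_lit 437833, nat_lit 268342, nat_lit 118485, nat_lit 23321, nat_lit 326401, nat_lit 607161, nat_lit 547746, nat_lit 452798, nat_lit 328001, nat_lit 202153, nat_lit 93569, nat_lit 26068, nat_lit 2768, nat_lit 132544, nat_lit 238911, nat_lit 200252, nat_lit 150821, nat_lit 89249, nat_lit 41701, nat_lit 12892, nat_lit 2066, nat_lit 92, nat_lit 11724, nat_lit 20212, nat_lit 15025, nat_lit 9368, nat_lit 4331, nat_lit 1373, nat_lit 285, nat_lit 28, nat_lit 237]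

theorem run2b : leqO (iterO (nat_lit 115) TK2 TG2 (nat_lit 32) wb2a) wb2b = true := by
  decide +kernel

end Vale.Agent.P154.E
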