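import Vale.Agent.P154N.EFin
import Vale.Agent.P154.N3BAll
import Vale.Agent.P154.N3End4

/-! P154, three states, at most four children, negative eigenvalues: nonreconstruction -/

namespace Vale.Agent.P154N

open Vale.Agent.P154.G Vale.Agent.P154.E Filter Topology

lemma bd231 : ∀ (x : ℝ), x = -1 / 2 → ∀ h0 : 0 ≤ 1 + (((3 : ℕ) : ℝ) - 1) * x ∧ x ≤ 1,
    Bd (fam (PMF.pure 4) (potts (q := 3) x h0) 231) (fun k : Fin 116 => gpt Gam2 ga2 k)
      (fun k => (wb2c.getD k 0 : ℝ) / SW) := by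
  rintro x rfl h0
  exact stage2.2.2

/-- three states, at most four children, `lam ∈ [-1/2, 0]`: nonreconstruction -/
theorem four_neg {d' : ℕ} (hd : d' ≤ 4) {lam' : ℝ}
    (h' : 0 ≤ 1 + (((3 : ℕ) : ℝ) - 1) * lam' ∧ lam' ≤ 1) (hl : lam' ≤ 0) :
    Tendsto (fun n => an (PMF.pure d') (potts (q := 3) lam' h') n) atTop (𝓝 0) := by
  have h0 : 0 ≤ 1 + (((3 : ℕ) : ℝ) - 1) * (-(1 / 2) : ℝ) ∧ (-(1 / 2) : ℝ) ≤ 1 := by
    constructor <;> norm_num
  have hB := bd231 (-(1 / 2)) (by norm_num) h0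
  have m1 := mom_le (n := 115) grid2.Gpos grid2.len grid2.mass stage2.1 1 (P := 1) (Q := 10)
    (by norm_num) (by decide +kernel)
  have m2 := mom_le (n := 115) grid2.Gpos grid2.len grid2.mass stage2.1 2 (P := 175) (Q := 10000)
    (by norm_num) (by decide +kernel)
  simp only [pow_one] at m1
  have e1 : ((1 : ℤ) : ℝ) / ((10 : ℤ) : ℝ) = 1 / 10 := by norm_num
  have e2 : ((175 : ℤ) : ℝ) / ((10000 : ℤ) : ℝ) = 175 / 10000 := by norm_num
  rw [e1] at m1
  rw [e2] at m2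
  exact loc4_of_Bd biR biG biP biM biL h0 (ι := Fin 116) (g := fun k : Fin 116 => gpt Gam2 ga2 k)
    (w := fun k : Fin 116 => (wb2c.getD k 0 : ℝ) / SW) (fun k => grid2.sg1 k) hB m1 m2 hd h' hl

end Vale.Agent.P154N
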